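import Mathlib

namespace Vale.Agent.P063

open Finset

/-- number of edges of `S` that meet `R` -/
def hit {n : ℕ} (S : Finset (Finset (Fin n))) (R : Finset (Fin n)) : ℕ :=
  (S.filter (fun e => (e ∩ R).Nonempty)).card

lemma avg_card_sup {α : Type*} [DecidableEq α] (A D : Finset α) (hD : D ⊆ A) (t : ℕ)
    (ht : D.card ≤ t) :
    ((Finset.powersetCard t A).filter (fun R => D ⊆ R)).card =
      (A.card - D.card).choose (t - D.card) := by
  rw [← Finset.card_sdiff_of_subset hD, ← Finset.card_powersetCard]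
  apply Finset.card_nbij' (fun R => R \ D) (fun R => R ∪ D)
  · intro R hR
    simp only [Finset.coe_filter, Finset.mem_powersetCard, Set.mem_ofPred_eq] at hR
    obtain ⟨⟨h1, h2⟩, h3⟩ := hR
    simp only [Finset.mem_coe, Finset.mem_powersetCard]
    refine ⟨Finset.sdiff_subset_sdiff h1 le_rfl, ?_⟩
    rw [Finset.card_sdiff_of_subset h3, h2]
  · intro R hR
    simp only [Finset.mem_coe, Finset.mem_powersetCard] at hR
    obtain ⟨h1, h2⟩ := hR
    simp only [Finset.coe_filter, Finset.mem_powersetCard, Set.mem_ofPred_eq]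
    refine ⟨⟨Finset.union_subset (h1.trans Finset.sdiff_subset) hD, ?_⟩,
      Finset.subset_union_right⟩
    have hdis : Disjoint R D := Finset.disjoint_of_subset_left h1 Finset.sdiff_disjoint
    rw [Finset.card_union_of_disjoint hdis, h2]
    omega
  · intro R hR
    simp only [Finset.coe_filter, Finset.mem_powersetCard, Set.mem_ofPred_eq] at hR
    exact Finset.sdiff_union_of_subset hR.2
  · intro R hR
    simp only [Finset.mem_coe, Finset.mem_powersetCard] at hR
    have hdis : Disjoint R D := Finset.disjoint_of_subset_left hR.1 Finset.sdiff_disjoint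
    exact Finset.union_sdiff_cancel_right hdis

/-- number of `t`-sets that contain a given point -/
lemma avg_c1 (n t : ℕ) (ht : 1 ≤ t) (u : Fin n) :
    (((Finset.powersetCard t (Finset.univ : Finset (Fin n))).filter (fun R => u ∈ R)).card : ℝ) =
      ((n - 1).choose (t - 1) : ℕ) := by
  have h := avg_card_sup (Finset.univ : Finset (Fin n)) {u} (Finset.subset_univ _) t
    (by rw [Finset.card_singleton]; exact ht)
  rw [Finset.card_singleton, Finset.card_univ, Fintype.card_fin] at h
  rw [← h]
  congr 2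
  ext R
  rw [Finset.mem_filter, Finset.mem_filter, Finset.singleton_subset_iff]

/-- number of `t`-sets that contain two given points -/
lemma avg_c2 (n t : ℕ) (u w : Fin n) (huw : u ≠ w) :
    ((n : ℝ) - 1) * (((Finset.powersetCard t (Finset.univ : Finset (Fin n))).filter
      (fun R => u ∈ R ∧ w ∈ R)).card : ℝ) = ((t : ℝ) - 1) * ((n - 1).choose (t - 1) : ℕ) ∨
    (((Finset.powersetCard t (Finset.univ : Finset (Fin n))).filter
      (fun R => u ∈ R ∧ w ∈ R)).card : ℝ) = 0 := by
  by_cases ht : 2 ≤ t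
  · left
    have hc : ({u, w} : Finset (Fin n)).card = 2 := Finset.card_pair huw
    have h := avg_card_sup (Finset.univ : Finset (Fin n)) {u, w} (Finset.subset_univ _) t
      (by rw [hc]; exact ht)
    rw [hc, Finset.card_univ, Fintype.card_fin] at h
    have h2 : (Finset.powersetCard t (Finset.univ : Finset (Fin n))).filter
        (fun R => u ∈ R ∧ w ∈ R) = (Finset.powersetCard t (Finset.univ : Finset (Fin n))).filter
        (fun R => {u, w} ⊆ R) := by
      ext R
      rw [Finset.mem_filter, Finset.mem_filter, Finset.insert_subset_iff,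
        Finset.singleton_subset_iff]
    rw [h2, h]
    have hn : 2 ≤ n := by
      have h3 := Finset.card_le_univ ({u, w} : Finset (Fin n))
      rw [hc, Fintype.card_fin] at h3
      exact h3
    obtain ⟨m, rfl⟩ : ∃ m, n = m + 2 := ⟨n - 2, by omega⟩
    obtain ⟨s, rfl⟩ : ∃ s, t = s + 2 := ⟨t - 2, by omega⟩
    have h4 : m + 2 - 1 = m + 1 := by omega
    have h5 : s + 2 - 1 = s + 1 := by omega
    rw [Nat.add_sub_cancel, Nat.add_sub_cancel, h4, h5]
    have h6 := Nat.add_one_mul_choose_eq m s
    have h7 : ((m : ℝ) + 1) * (m.choose s : ℕ) = ((m + 1).choose (s + 1) : ℕ) * ((s : ℝ) + 1) := by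
      exact_mod_cast h6
    push_cast
    linarith
  · right
    rw [Finset.filter_false_of_mem, Finset.card_empty, Nat.cast_zero]
    intro R hR h
    rw [Finset.mem_powersetCard] at hR
    have h1 : ({u, w} : Finset (Fin n)) ⊆ R := by
      rw [Finset.insert_subset_iff, Finset.singleton_subset_iff]
      exact h
    have h2 := Finset.card_le_card h1
    rw [Finset.card_pair huw, hR.2] at h2
    exact ht h2

/-- a random set of `n / v` vertices meets between `1` and `k` edges of `S` with probability at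
least `1/8`, where `v` is the number of vertices of `S` -/
theorem avg_bound (n r k v t : ℕ) (S : Finset (Finset (Fin n))) (hr1 : 1 ≤ r)
    (hr : ∀ e ∈ S, e.card = r) (hk : 1 ≤ k) (hv : (S.biUnion id).card = v) (hv1 : 1 ≤ v)
    (hvn : v ≤ n) (ht : t = n / v) (hm : 4 * r * S.card ≤ v * k) :
    ((Finset.powersetCard t (Finset.univ : Finset (Fin n))).card : ℝ) ≤
      8 * (((Finset.powersetCard t (Finset.univ : Finset (Fin n))).filter
        (fun R => 1 ≤ hit S R ∧ hit S R ≤ k)).card : ℝ) := by
  set V := S.biUnion id with hV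
  set C := Finset.powersetCard t (Finset.univ : Finset (Fin n)) with hC
  have ht1 : 1 ≤ t := by
    rw [ht]
    exact Nat.div_pos hvn hv1
  have htv : t * v ≤ n := by rw [ht]; exact Nat.div_mul_le_self n v
  have htv2 : n < 2 * (t * v) := by
    have h1 : n < (t + 1) * v := by
      rw [ht]
      exact Nat.lt_mul_of_div_lt (Nat.lt_succ_self _) hv1
    nlinarith
  have hn1 : 1 ≤ n := hv1.trans hvn
  set c1 : ℝ := (((n - 1).choose (t - 1) : ℕ) : ℝ) with hc1
  have hc10 : 0 ≤ c1 := Nat.cast_nonneg _
  have hNc : (n : ℝ) * c1 = (t : ℝ) * (C.card : ℝ) := by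
    rw [hC, Finset.card_powersetCard, Finset.card_univ, Fintype.card_fin, hc1]
    obtain ⟨m, rfl⟩ : ∃ m, n = m + 1 := ⟨n - 1, by omega⟩
    obtain ⟨s, hs⟩ : ∃ s, t = s + 1 := ⟨t - 1, by omega⟩
    rw [hs, Nat.add_sub_cancel, Nat.add_sub_cancel]
    have h6 := Nat.add_one_mul_choose_eq m s
    have h7 : ((m : ℝ) + 1) * (m.choose s : ℕ) = ((m + 1).choose (s + 1) : ℕ) * ((s : ℝ) + 1) := by
      exact_mod_cast h6
    push_cast
    linarith
  -- indicator
  set I : Fin n → Finset (Fin n) → ℝ := fun u R => if u ∈ R then 1 else 0 with hI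
  have hIsum : ∀ u, ∑ R ∈ C, I u R = c1 := by
    intro u
    rw [hI]
    simp only
    rw [← Finset.sum_filter, Finset.sum_const, nsmul_eq_mul, mul_one, hC, avg_c1 n t ht1 u]
  have hh : ∀ R : Finset (Fin n), ((V ∩ R).card : ℝ) = ∑ u ∈ V, I u R := by
    intro R
    rw [hI]
    simp only
    rw [← Finset.sum_filter, Finset.sum_const, nsmul_eq_mul, mul_one, Finset.filter_mem_eq_inter]
  -- first moment
  have m1 : ∑ R ∈ C, ((V ∩ R).card : ℝ) = v * c1 := by
    simp only [hh]
    rw [Finset.sum_comm, Finset.sum_congr rfl (fun u _ => hIsum u), Finset.sum_const,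
      nsmul_eq_mul, hv]
  -- second moment
  have hpair : ∀ u w, u ≠ w → (n : ℝ) * ∑ R ∈ C, I u R * I w R ≤ t * c1 := by
    intro u w huw
    have e1 : ∑ R ∈ C, I u R * I w R =
        ((C.filter (fun R => u ∈ R ∧ w ∈ R)).card : ℝ) := by
      rw [hI]
      simp only
      have : ∀ R ∈ C, ((if u ∈ R then (1 : ℝ) else 0) * (if w ∈ R then (1 : ℝ) else 0)) =
          if (u ∈ R ∧ w ∈ R) then 1 else 0 := by
        intro R _
        by_cases h1 : u ∈ R <;> by_cases h2 : w ∈ R <;> simp [h1, h2]
      rw [Finset.sum_congr rfl this, ← Finset.sum_filter, Finset.sum_const, nsmul_eq_mul, mul_one]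
    rw [e1]
    set q : ℝ := ((C.filter (fun R => u ∈ R ∧ w ∈ R)).card : ℝ) with hq
    have hq0 : 0 ≤ q := Nat.cast_nonneg _
    have hn2 : 2 ≤ n := by
      have h3 := Finset.card_le_univ ({u, w} : Finset (Fin n))
      rw [Finset.card_pair huw, Fintype.card_fin] at h3
      exact h3
    have hn2' : (2 : ℝ) ≤ n := by exact_mod_cast hn2
    have htn : (t : ℝ) ≤ n := by
      have : t ≤ n := by nlinarith
      exact_mod_cast this
    have ht1' : (1 : ℝ) ≤ t := by exact_mod_cast ht1
    rcases avg_c2 n t u w huw with h | h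
    · rw [← hC] at h
      have h' : ((n : ℝ) - 1) * q = ((t : ℝ) - 1) * c1 := h
      have h2 : ((n : ℝ) - 1) * (n * q) ≤ ((n : ℝ) - 1) * (t * c1) := by
        have : ((n : ℝ) - 1) * (n * q) = n * (((n : ℝ) - 1) * q) := by ring
        rw [this, h']
        nlinarith
      exact le_of_mul_le_mul_left h2 (by linarith)
    · rw [← hC] at h
      have h' : q = 0 := h
      rw [h', mul_zero]
      positivity
  have m2 : (n : ℝ) * ∑ R ∈ C, (((V ∩ R).card : ℝ) ^ 2 - ((V ∩ R).card : ℝ)) ≤
      v * v * (t * c1) := by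
    have e1 : ∀ R ∈ C, ((V ∩ R).card : ℝ) ^ 2 - ((V ∩ R).card : ℝ) =
        ∑ u ∈ V, ∑ w ∈ V.erase u, I u R * I w R := by
      intro R _
      rw [hh R, sq, Finset.sum_mul_sum, ← Finset.sum_sub_distrib]
      refine Finset.sum_congr rfl fun u hu => ?_
      rw [← Finset.add_sum_erase V _ hu]
      have : I u R * I u R = I u R := by
        rw [hI]; simp only; split_ifs <;> norm_num
      rw [this]
      ring
    rw [Finset.sum_congr rfl e1, Finset.sum_comm]
    have e2 : ∀ u ∈ V, ∑ R ∈ C, ∑ w ∈ V.erase u, I u R * I w R =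
        ∑ w ∈ V.erase u, ∑ R ∈ C, I u R * I w R := fun u _ => Finset.sum_comm
    rw [Finset.sum_congr rfl e2, Finset.mul_sum]
    calc ∑ u ∈ V, (n : ℝ) * ∑ w ∈ V.erase u, ∑ R ∈ C, I u R * I w R
        ≤ ∑ u ∈ V, (v : ℝ) * (t * c1) := by
          refine Finset.sum_le_sum fun u hu => ?_
          rw [Finset.mul_sum]
          calc ∑ w ∈ V.erase u, (n : ℝ) * ∑ R ∈ C, I u R * I w R
              ≤ ∑ w ∈ V.erase u, (t * c1 : ℝ) := by
                refine Finset.sum_le_sum fun w hw => ?_
                exact hpair u w (Finset.ne_of_mem_erase hw).symm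
            _ = ((V.erase u).card : ℝ) * (t * c1) := by
                rw [Finset.sum_const, nsmul_eq_mul]
            _ ≤ (v : ℝ) * (t * c1) := by
                refine mul_le_mul_of_nonneg_right ?_ (by positivity)
                have := Finset.card_erase_le (s := V) (a := u)
                rw [hv] at this
                exact_mod_cast this
      _ = v * v * (t * c1) := by
          rw [Finset.sum_const, nsmul_eq_mul, hv]
          ring
  -- moment of the number of edges hit
  have m3 : ∑ R ∈ C, (hit S R : ℝ) ≤ (S.card : ℝ) * (r * c1) := by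
    have e1 : ∀ R ∈ C, (hit S R : ℝ) ≤ ∑ e ∈ S, ∑ u ∈ e, I u R := by
      intro R _
      unfold hit
      rw [Finset.card_filter]
      push_cast
      refine Finset.sum_le_sum fun e _ => ?_
      split_ifs with hne
      · obtain ⟨u, hu⟩ := hne
        rw [Finset.mem_inter] at hu
        have h2 : I u R ≤ ∑ w ∈ e, I w R := by
          refine Finset.single_le_sum (f := fun w => I w R) (fun w _ => ?_) hu.1
          rw [hI]; simp only; split_ifs <;> norm_num
        have h3 : I u R = 1 := by
          rw [hI]; simp only; rw [if_pos hu.2]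
        rw [h3] at h2
        exact h2
      · refine Finset.sum_nonneg fun w _ => ?_
        rw [hI]; simp only; split_ifs <;> norm_num
    refine (Finset.sum_le_sum e1).trans ?_
    rw [Finset.sum_comm]
    refine le_of_eq ?_
    have e2 : ∀ e ∈ S, ∑ R ∈ C, ∑ u ∈ e, I u R = r * c1 := by
      intro e he
      rw [Finset.sum_comm, Finset.sum_congr rfl (fun u _ => hIsum u), Finset.sum_const,
        nsmul_eq_mul, hr e he]
    rw [Finset.sum_congr rfl e2, Finset.sum_const, nsmul_eq_mul]
  -- pointwise inequality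
  have hk0 : (0 : ℝ) < k := by exact_mod_cast hk
  have hpt : ∀ R ∈ C, ((V ∩ R).card : ℝ) - (((V ∩ R).card : ℝ) ^ 2 - ((V ∩ R).card : ℝ)) / 2 -
      (hit S R : ℝ) / k ≤ if (1 ≤ hit S R ∧ hit S R ≤ k) then (1 : ℝ) else 0 := by
    intro R _
    by_cases h0 : (V ∩ R).card = 0
    · rw [h0]
      have h1 : 0 ≤ (hit S R : ℝ) / k := by positivity
      split_ifs
      · push_cast; linarith
      · push_cast; linarith
    · have hpos : 0 < (V ∩ R).card := Nat.pos_of_ne_zero h0
      obtain ⟨u, hu⟩ := Finset.card_pos.1 hpos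
      rw [Finset.mem_inter, hV, Finset.mem_biUnion] at hu
      obtain ⟨⟨e, he, hue⟩, huR⟩ := hu
      have hhit : 1 ≤ hit S R := by
        unfold hit
        refine Finset.card_pos.2 ⟨e, ?_⟩
        rw [Finset.mem_filter]
        exact ⟨he, u, Finset.mem_inter.2 ⟨hue, huR⟩⟩
      have hb : ((V ∩ R).card : ℝ) - (((V ∩ R).card : ℝ) ^ 2 - ((V ∩ R).card : ℝ)) / 2 ≤ 1 := by
        set h := (V ∩ R).card with hh'
        have h2 : (0 : ℝ) ≤ ((h : ℝ) - 1) * ((h : ℝ) - 2) := by
          rcases Nat.lt_or_ge h 2 with h3 | h3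
          · have h4 : h = 1 := by omega
            rw [h4]; norm_num
          · have h4 : (2 : ℝ) ≤ h := by exact_mod_cast h3
            nlinarith
        nlinarith
      by_cases hle : hit S R ≤ k
      · rw [if_pos ⟨hhit, hle⟩]
        have h1 : 0 ≤ (hit S R : ℝ) / k := by positivity
        linarith
      · rw [if_neg (fun h => hle h.2)]
        have h1 : (1 : ℝ) ≤ (hit S R : ℝ) / k := by
          rw [le_div_iff₀ hk0, one_mul]
          have : k ≤ hit S R := by omega
          exact_mod_cast this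
        linarith
  have hsum := Finset.sum_le_sum hpt
  rw [← Finset.sum_filter, Finset.sum_const, nsmul_eq_mul, mul_one, Finset.sum_sub_distrib,
    Finset.sum_sub_distrib, ← Finset.sum_div, ← Finset.sum_div, m1] at hsum
  set X : ℝ := ((C.filter (fun R => 1 ≤ hit S R ∧ hit S R ≤ k)).card : ℝ) with hX
  set Y : ℝ := ∑ R ∈ C, (((V ∩ R).card : ℝ) ^ 2 - ((V ∩ R).card : ℝ)) with hY
  set H : ℝ := ∑ R ∈ C, (hit S R : ℝ) with hH
  have hn0 : (0 : ℝ) < n := by exact_mod_cast hn1
  have hv0 : (0 : ℝ) < v := by exact_mod_cast hv1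
  -- bound of `Y`
  have hY2 : Y ≤ v * c1 := by
    have h1 : (t : ℝ) * v ≤ n := by exact_mod_cast htv
    have h2 : (n : ℝ) * Y ≤ n * (v * c1) := by
      refine m2.trans ?_
      calc (v : ℝ) * v * (t * c1) = ((t : ℝ) * v) * (v * c1) := by ring
        _ ≤ n * (v * c1) := mul_le_mul_of_nonneg_right h1 (by positivity)
    exact le_of_mul_le_mul_left h2 hn0
  have hH2 : H / k ≤ v * c1 / 4 := by
    rw [div_le_iff₀ hk0]
    have h1 : 4 * (r : ℝ) * S.card ≤ v * k := by exact_mod_cast hm
    have h2 := mul_le_mul_of_nonneg_right h1 hc10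
    linarith
  have hfin : v * c1 / 4 ≤ X := by linarith
  have hC8 : (C.card : ℝ) ≤ 2 * (v * c1) := by
    have h1 : (n : ℝ) ≤ 2 * (t * v) := by exact_mod_cast htv2.le
    have ht0 : (0 : ℝ) < t := by exact_mod_cast ht1
    have h2 : (t : ℝ) * (C.card : ℝ) ≤ t * (2 * (v * c1)) := by
      rw [← hNc]
      calc (n : ℝ) * c1 ≤ 2 * (t * v) * c1 := mul_le_mul_of_nonneg_right h1 hc10
        _ = t * (2 * (v * c1)) := by ring
    exact le_of_mul_le_mul_left h2 ht0
  linarith

end Vale.Agent.P063
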