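import Vale.Agent.P063.Sym
import Vale.Agent.P063.Avg

namespace Vale.Agent.P063

open Finset

set_option linter.unusedSectionVars false

variable {r n : ℕ}

/-- bound of the weight of the sets of edges that have between `1` and `k` edges meeting `R` -/
lemma slice_bound {P : Set (Hyp r n)} (hP : IsProperty P) {R : Finset (Fin n)} (hR : r < R.card)
    {p : ℝ} (h0 : 0 < p) (h1 : p < 1) (k : ℕ) {L : ℝ} (hL : 0 < L) :
    ∑ S ∈ (Finset.univ : Hyp r n).powerset.filter
        (fun S => 1 ≤ (S ∩ ER r R).card ∧ (S ∩ ER r R).card ≤ k),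
      co p Finset.univ (ind P) S ^ 2 ≤
      (1 / L + sg p ^ 2 * (4 / sg p) ^ k * Real.sqrt (L / (R.card : ℝ))) *
        ∑ e : Edge r n, piv p Finset.univ (ind P) e := by
  have hs := sg_pos h0 h1
  have hd := disjoint_ER_BR (r := r) R
  have hU := ER_union_BR (r := r) R
  have hRpos : (0 : ℝ) < (R.card : ℝ) := by
    have : 0 < R.card := by omega
    exact_mod_cast this
  have e1 := slice_sum h0 h1 hd k (ind P)
  rw [hU] at e1
  rw [e1]
  set c : ℝ := 1 / L + sg p ^ 2 * (4 / sg p) ^ k * Real.sqrt (L / (R.card : ℝ)) with hc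
  have hc0 : 0 ≤ c := by positivity
  have step1 : Ex p (BR r R) (fun z => ∑ T ∈ (ER r R).powerset.filter
        (fun T => 1 ≤ T.card ∧ T.card ≤ k), co p (ER r R) (fun y => ind P (y ∪ z)) T ^ 2) ≤
      Ex p (BR r R) (fun z => c * ∑ j ∈ ER r R, piv p (ER r R) (fun y => ind P (y ∪ z)) j) := by
    refine Ex_mono h0.le h1.le fun z hz => ?_
    exact weight_bound h0 h1 k hRpos hL _ (fun x _ => ind_val P _)
      (fun i hi => orbit_bound hP hR hz h0.le h1.le hi)
  refine step1.trans ?_
  rw [Ex_smul, Ex_sum]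
  refine mul_le_mul_of_nonneg_left ?_ hc0
  have e2 : ∀ j ∈ ER r R, Ex p (BR r R) (fun z => piv p (ER r R) (fun y => ind P (y ∪ z)) j) =
      piv p Finset.univ (ind P) j := by
    intro j hj
    rw [slice_piv p hd hj, hU]
  rw [Finset.sum_congr rfl e2]
  exact Finset.sum_le_sum_of_subset_of_nonneg (Finset.subset_univ _)
    fun i _ _ => piv_nonneg h0.le h1.le _ _ _

/-- the set of vertices of a set of edges -/
def vset (S : Hyp r n) : Finset (Fin n) := S.biUnion (fun e => e.1)

lemma vset_card_le (S : Hyp r n) : (vset S).card ≤ r * S.card := by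
  unfold vset
  refine Finset.card_biUnion_le.trans ?_
  rw [Finset.sum_const_nat (m := r) (fun e _ => e.2), mul_comm]

lemma vset_card_pos (hr : 1 ≤ r) {S : Hyp r n} (hS : 1 ≤ S.card) : 1 ≤ (vset S).card := by
  obtain ⟨e, he⟩ := Finset.card_pos.1 (Nat.lt_of_lt_of_le Nat.zero_lt_one hS)
  have h1 : e.1 ⊆ vset S := fun x hx => Finset.mem_biUnion.2 ⟨e, he, hx⟩
  have h2 := Finset.card_le_card h1
  rw [e.2] at h2
  omega

lemma card_le_vset_pow (S : Hyp r n) : S.card ≤ (vset S).card ^ r := by
  have h1 : S.image Subtype.val ⊆ Finset.powersetCard r (vset S) := by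
    intro e he
    rw [Finset.mem_image] at he
    obtain ⟨f, hf, rfl⟩ := he
    rw [Finset.mem_powersetCard]
    exact ⟨fun x hx => Finset.mem_biUnion.2 ⟨f, hf, hx⟩, f.2⟩
  have h2 := Finset.card_le_card h1
  rw [Finset.card_powersetCard, Finset.card_image_of_injective _ Subtype.val_injective] at h2
  exact h2.trans (Nat.choose_le_pow _ _)

/-- averaging bound for sets of edges -/
lemma avg_edges (hr : 1 ≤ r) {k M w : ℕ} (hk : 1 ≤ k) (hw1 : 4 * r * w ^ (r - 1) ≤ k)
    (hw2 : 4 * r * M ≤ (w + 1) * k) {S : Hyp r n} (hS1 : 1 ≤ S.card) (hSM : S.card ≤ M)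
    (hrM : r * M ≤ n) :
    ((Finset.powersetCard (n / (vset S).card) (Finset.univ : Finset (Fin n))).card : ℝ) ≤
      8 * (((Finset.powersetCard (n / (vset S).card) (Finset.univ : Finset (Fin n))).filter
        (fun R => 1 ≤ (S ∩ ER r R).card ∧ (S ∩ ER r R).card ≤ k)).card : ℝ) := by
  have hv1 := vset_card_pos hr hS1
  have hv2 := vset_card_le S
  have hvn : (vset S).card ≤ n := hv2.trans ((Nat.mul_le_mul_left r hSM).trans hrM)
  have hhit : ∀ R : Finset (Fin n), hit (S.image Subtype.val) R = (S ∩ ER r R).card := by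
    intro R
    unfold hit
    rw [← Finset.card_image_of_injective (S ∩ ER r R) Subtype.val_injective]
    congr 1
    ext e
    simp only [Finset.mem_filter, Finset.mem_image, Finset.mem_inter]
    constructor
    · rintro ⟨⟨f, hf, rfl⟩, hne⟩
      refine ⟨f, ⟨hf, ?_⟩, rfl⟩
      unfold ER
      exact Finset.mem_filter.2 ⟨Finset.mem_univ _, hne⟩
    · rintro ⟨f, ⟨hf, hf2⟩, rfl⟩
      refine ⟨⟨f, hf, rfl⟩, ?_⟩
      unfold ER at hf2
      exact (Finset.mem_filter.1 hf2).2
  have hcond : 4 * r * (S.image Subtype.val).card ≤ (vset S).card * k := by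
    rw [Finset.card_image_of_injective _ Subtype.val_injective]
    by_cases hvw : (vset S).card ≤ w
    · have h3 := card_le_vset_pow S
      calc 4 * r * S.card ≤ 4 * r * (vset S).card ^ r := Nat.mul_le_mul_left _ h3
        _ = (vset S).card * (4 * r * (vset S).card ^ (r - 1)) := by
            obtain ⟨r', rfl⟩ : ∃ r', r = r' + 1 := ⟨r - 1, by omega⟩
            rw [Nat.add_sub_cancel, pow_succ]
            ring
        _ ≤ (vset S).card * (4 * r * w ^ (r - 1)) :=
            Nat.mul_le_mul_left _ (Nat.mul_le_mul_left _ (Nat.pow_le_pow_left hvw _))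
        _ ≤ (vset S).card * k := Nat.mul_le_mul_left _ hw1
    · push Not at hvw
      calc 4 * r * S.card ≤ 4 * r * M := Nat.mul_le_mul_left _ hSM
        _ ≤ (w + 1) * k := hw2
        _ ≤ (vset S).card * k := Nat.mul_le_mul_right _ hvw
  have hbi : (S.image Subtype.val).biUnion id = vset S := by
    unfold vset
    rw [Finset.image_biUnion]
    rfl
  have h := avg_bound n r k (vset S).card (n / (vset S).card) (S.image Subtype.val) hr
    (by
      intro e he
      rw [Finset.mem_image] at he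
      obtain ⟨f, _, rfl⟩ := he
      exact f.2) hk (by rw [hbi]) hv1 hvn rfl hcond
  simp only [hhit] at h
  exact h

/-- weight of the nonempty sets of at most `M` edges spanning `v` vertices -/
lemma fiber_bound {P : Set (Hyp r n)} (hP : IsProperty P) (hr : 1 ≤ r)
    {p : ℝ} (h0 : 0 < p) (h1 : p < 1) {k M w : ℕ} {L : ℝ} (hk : 1 ≤ k) (hL : 0 < L)
    (hw1 : 4 * r * w ^ (r - 1) ≤ k) (hw2 : 4 * r * M ≤ (w + 1) * k)
    (hrM : (r + 1) * (r * M) ≤ n) {v : ℕ} (hv1 : 1 ≤ v) (hv2 : v ≤ r * M) :
    ∑ S ∈ ((Finset.univ : Hyp r n).powerset.filter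
        (fun S => 1 ≤ S.card ∧ S.card ≤ M)).filter (fun S => (vset S).card = v),
      co p Finset.univ (ind P) S ^ 2 ≤
      8 * ((1 / L + sg p ^ 2 * (4 / sg p) ^ k * Real.sqrt (L / ((n / (r * M) : ℕ) : ℝ))) *
        ∑ e : Edge r n, piv p Finset.univ (ind P) e) := by
  have hs := sg_pos h0 h1
  have hrM0 : r * M ≤ n := by nlinarith
  have hvn : v ≤ n := hv2.trans hrM0
  set t := n / v with ht
  have hrMpos : 0 < r * M := by omega
  have ht2 : n / (r * M) ≤ t := Nat.div_le_div_left hv2 hv1
  have ht3 : r + 1 ≤ n / (r * M) := by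
    rw [Nat.le_div_iff_mul_le hrMpos]
    exact hrM
  have htn : t ≤ n := Nat.div_le_self n v
  set I := ∑ e : Edge r n, piv p Finset.univ (ind P) e with hI
  have hI0 : 0 ≤ I := Finset.sum_nonneg fun i _ => piv_nonneg h0.le h1.le _ _ _
  set C := Finset.powersetCard t (Finset.univ : Finset (Fin n)) with hC
  have hCpos : (0 : ℝ) < (C.card : ℝ) := by
    rw [hC, Finset.card_powersetCard, Finset.card_univ, Fintype.card_fin]
    exact_mod_cast Nat.choose_pos htn
  set c : ℝ := 1 / L + sg p ^ 2 * (4 / sg p) ^ k * Real.sqrt (L / ((n / (r * M) : ℕ) : ℝ)) with hc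
  set 𝒮 := ((Finset.univ : Hyp r n).powerset.filter
        (fun S => 1 ≤ S.card ∧ S.card ≤ M)).filter (fun S => (vset S).card = v) with h𝒮
  set F : Hyp r n → ℝ := fun S => co p Finset.univ (ind P) S ^ 2 with hF
  have hF0 : ∀ S, 0 ≤ F S := fun S => sq_nonneg _
  have key : (C.card : ℝ) * ∑ S ∈ 𝒮, F S ≤ (C.card : ℝ) * (8 * (c * I)) := by
    calc (C.card : ℝ) * ∑ S ∈ 𝒮, F S
        = ∑ S ∈ 𝒮, (C.card : ℝ) * F S := Finset.mul_sum _ _ _
      _ ≤ ∑ S ∈ 𝒮, 8 * ((C.filter
            (fun R => 1 ≤ (S ∩ ER r R).card ∧ (S ∩ ER r R).card ≤ k)).card : ℝ) * F S := by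
          refine Finset.sum_le_sum fun S hS => ?_
          rw [h𝒮, Finset.mem_filter, Finset.mem_filter] at hS
          obtain ⟨⟨_, hS1, hS2⟩, hS3⟩ := hS
          refine mul_le_mul_of_nonneg_right ?_ (hF0 S)
          have h := avg_edges hr hk hw1 hw2 hS1 hS2 hrM0
          rw [hS3] at h
          exact h
      _ = 8 * ∑ R ∈ C, ∑ S ∈ 𝒮,
            (if 1 ≤ (S ∩ ER r R).card ∧ (S ∩ ER r R).card ≤ k then F S else 0) := by
          rw [Finset.sum_comm, Finset.mul_sum]
          refine Finset.sum_congr rfl fun S _ => ?_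
          rw [← Finset.sum_filter, Finset.sum_const, nsmul_eq_mul]
          ring
      _ ≤ 8 * ∑ R ∈ C, c * I := by
          refine mul_le_mul_of_nonneg_left (Finset.sum_le_sum fun R hR => ?_) (by norm_num)
          rw [hC, Finset.mem_powersetCard] at hR
          have hRc : R.card = t := hR.2
          have hRr : r < R.card := by omega
          have hb := slice_bound hP hRr h0 h1 k hL
          rw [← Finset.sum_filter]
          have h3 : ∑ S ∈ 𝒮.filter
                (fun S => 1 ≤ (S ∩ ER r R).card ∧ (S ∩ ER r R).card ≤ k), F S ≤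
              ∑ S ∈ (Finset.univ : Hyp r n).powerset.filter
                (fun S => 1 ≤ (S ∩ ER r R).card ∧ (S ∩ ER r R).card ≤ k), F S := by
            refine Finset.sum_le_sum_of_subset_of_nonneg ?_ fun S _ _ => hF0 S
            intro S hS
            rw [Finset.mem_filter] at hS ⊢
            exact ⟨Finset.mem_powerset.2 (Finset.subset_univ _), hS.2⟩
          refine (h3.trans hb).trans (mul_le_mul_of_nonneg_right ?_ hI0)
          rw [hc]
          have h4 : Real.sqrt (L / (R.card : ℝ)) ≤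
              Real.sqrt (L / ((n / (r * M) : ℕ) : ℝ)) := by
            apply Real.sqrt_le_sqrt
            apply div_le_div_of_nonneg_left hL.le
            · have : 0 < n / (r * M) := by omega
              exact_mod_cast this
            · rw [hRc]
              exact_mod_cast ht2
          have h5 : 0 ≤ sg p ^ 2 * (4 / sg p) ^ k := by positivity
          have h6 := mul_le_mul_of_nonneg_left h4 h5
          linarith
      _ = (C.card : ℝ) * (8 * (c * I)) := by
          rw [Finset.sum_const, nsmul_eq_mul]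
          ring
  exact le_of_mul_le_mul_left key hCpos

/-- variance of the indicator of `P` -/
lemma var_eq (P : Set (Hyp r n)) {p : ℝ} (h0 : 0 < p) (h1 : p < 1) :
    ∑ S ∈ (Finset.univ : Hyp r n).powerset.filter (fun S => 1 ≤ S.card),
      co p Finset.univ (ind P) S ^ 2 =
      Ex p Finset.univ (ind P) * (1 - Ex p Finset.univ (ind P)) := by
  have e1 := parseval h0 h1 (Finset.univ : Hyp r n) (ind P)
  have e2 : Ex p (Finset.univ : Hyp r n) (fun x => ind P x ^ 2) = Ex p Finset.univ (ind P) := by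
    refine Ex_congr fun x _ => ?_
    rcases ind_val P x with h | h <;> rw [h] <;> norm_num
  have e3 : co p (Finset.univ : Hyp r n) (ind P) ∅ = Ex p Finset.univ (ind P) := by
    unfold co
    refine Ex_congr fun x _ => ?_
    rw [chi_empty, mul_one]
  have e4 : ∑ S ∈ (Finset.univ : Hyp r n).powerset, co p Finset.univ (ind P) S ^ 2 =
      ∑ S ∈ (Finset.univ : Hyp r n).powerset.filter (fun S => 1 ≤ S.card),
        co p Finset.univ (ind P) S ^ 2 + co p Finset.univ (ind P) ∅ ^ 2 := by
    rw [← Finset.sum_filter_add_sum_filter_not (Finset.univ : Hyp r n).powerset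
      (fun S => 1 ≤ S.card)]
    congr 1
    have : (Finset.univ : Hyp r n).powerset.filter (fun S => ¬ 1 ≤ S.card) = {∅} := by
      ext S
      simp only [Finset.mem_filter, Finset.mem_powerset, Finset.subset_univ, true_and,
        Finset.mem_singleton, not_le, Nat.lt_one_iff, Finset.card_eq_zero]
    rw [this, Finset.sum_singleton]
  rw [e4, e2, e3] at e1
  linarith

/-- main inequality between the variance and the total influence -/
theorem core {P : Set (Hyp r n)} (hP : IsProperty P) (hr : 1 ≤ r)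
    {p : ℝ} (h0 : 0 < p) (h1 : p < 1) (k M w : ℕ) (L : ℝ) (hk : 1 ≤ k) (hL : 0 < L)
    (hw1 : 4 * r * w ^ (r - 1) ≤ k) (hw2 : 4 * r * M ≤ (w + 1) * k)
    (hrM : (r + 1) * (r * M) ≤ n) :
    Ex p Finset.univ (ind P) * (1 - Ex p Finset.univ (ind P)) ≤
      (∑ e : Edge r n, piv p Finset.univ (ind P) e) *
        (sg p ^ 2 / (M + 1) + 8 * (r * M) *
          (1 / L + sg p ^ 2 * (4 / sg p) ^ k * Real.sqrt (L / ((n / (r * M) : ℕ) : ℝ)))) := by
  have hs := sg_pos h0 h1
  set I := ∑ e : Edge r n, piv p Finset.univ (ind P) e with hI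
  have hI0 : 0 ≤ I := Finset.sum_nonneg fun i _ => piv_nonneg h0.le h1.le _ _ _
  set c : ℝ := 1 / L + sg p ^ 2 * (4 / sg p) ^ k * Real.sqrt (L / ((n / (r * M) : ℕ) : ℝ)) with hc
  rw [← var_eq P h0 h1]
  set F : Hyp r n → ℝ := fun S => co p Finset.univ (ind P) S ^ 2 with hF
  have hF0 : ∀ S, 0 ≤ F S := fun S => sq_nonneg _
  -- low part
  have low : ∑ S ∈ (Finset.univ : Hyp r n).powerset.filter
      (fun S => 1 ≤ S.card ∧ S.card ≤ M), F S ≤ (r * M : ℕ) * (8 * (c * I)) := by
    have hmaps : ∀ S ∈ (Finset.univ : Hyp r n).powerset.filter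
        (fun S => 1 ≤ S.card ∧ S.card ≤ M), (vset S).card ∈ Finset.Icc 1 (r * M) := by
      intro S hS
      rw [Finset.mem_filter] at hS
      rw [Finset.mem_Icc]
      exact ⟨vset_card_pos hr hS.2.1, (vset_card_le S).trans (Nat.mul_le_mul_left r hS.2.2)⟩
    rw [← Finset.sum_fiberwise_of_maps_to hmaps]
    calc _ ≤ ∑ v ∈ Finset.Icc 1 (r * M), 8 * (c * I) := by
          refine Finset.sum_le_sum fun v hv => ?_
          rw [Finset.mem_Icc] at hv
          exact fiber_bound hP hr h0 h1 hk hL hw1 hw2 hrM hv.1 hv.2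
      _ = _ := by
          rw [Finset.sum_const, nsmul_eq_mul, Nat.card_Icc, Nat.add_sub_cancel]
  -- high part
  have high : ∑ S ∈ (Finset.univ : Hyp r n).powerset.filter (fun S => M + 1 ≤ S.card), F S ≤
      sg p ^ 2 / (M + 1) * I := by
    have e1 := sum_card_co h0 h1 (Finset.univ : Hyp r n) (ind P)
    have hM : (0 : ℝ) < (M : ℝ) + 1 := by positivity
    have h2 : ((M : ℝ) + 1) * ∑ S ∈ (Finset.univ : Hyp r n).powerset.filter
        (fun S => M + 1 ≤ S.card), F S ≤
        ∑ S ∈ (Finset.univ : Hyp r n).powerset, (S.card : ℝ) * F S := by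
      rw [Finset.mul_sum, Finset.sum_filter]
      refine Finset.sum_le_sum fun S _ => ?_
      split_ifs with h
      · have h3 : ((M : ℝ) + 1) ≤ S.card := by exact_mod_cast h
        exact mul_le_mul_of_nonneg_right h3 (hF0 S)
      · have := hF0 S
        positivity
    rw [e1] at h2
    rw [div_mul_eq_mul_div, le_div_iff₀ hM, mul_comm]
    exact h2
  have split : ∑ S ∈ (Finset.univ : Hyp r n).powerset.filter (fun S => 1 ≤ S.card), F S =
      ∑ S ∈ (Finset.univ : Hyp r n).powerset.filter (fun S => 1 ≤ S.card ∧ S.card ≤ M), F S +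
      ∑ S ∈ (Finset.univ : Hyp r n).powerset.filter (fun S => M + 1 ≤ S.card), F S := by
    rw [← Finset.sum_union]
    · congr 1
      ext S
      simp only [Finset.mem_filter, Finset.mem_union, Finset.mem_powerset, Finset.subset_univ,
        true_and]
      omega
    · rw [Finset.disjoint_left]
      intro S h1 h2
      rw [Finset.mem_filter] at h1 h2
      omega
  rw [split]
  push_cast at low
  calc _ ≤ (r * M : ℝ) * (8 * (c * I)) + sg p ^ 2 / (M + 1) * I := add_le_add low high
    _ = _ := by ring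

end Vale.Agent.P063
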