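import Mathlib

namespace Vale.Agent.P063

open Finset

set_option linter.unusedSectionVars false

variable {α : Type*} [DecidableEq α]

/-- expectation of `g` over a `p`-random subset of `A` -/
noncomputable def Ex (p : ℝ) (A : Finset α) (g : Finset α → ℝ) : ℝ :=
  ∑ x ∈ A.powerset, p ^ x.card * (1 - p) ^ (A.card - x.card) * g x

lemma Ex_empty (p : ℝ) (g : Finset α → ℝ) : Ex p ∅ g = g ∅ := by
  simp [Ex]

lemma Ex_insert (p : ℝ) {i : α} {A : Finset α} (hi : i ∉ A) (g : Finset α → ℝ) :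
    Ex p (insert i A) g = (1 - p) * Ex p A g + p * Ex p A (fun x => g (insert i x)) := by
  unfold Ex
  rw [Finset.sum_powerset_insert hi, Finset.mul_sum, Finset.mul_sum, Finset.card_insert_of_notMem hi]
  congr 1
  · refine Finset.sum_congr rfl fun x hx => ?_
    have hxA := Finset.mem_powerset.1 hx
    have h1 : A.card + 1 - x.card = (A.card - x.card) + 1 := by
      have := Finset.card_le_card hxA
      omega
    rw [h1, pow_succ]
    ring
  · refine Finset.sum_congr rfl fun x hx => ?_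
    have hxA := Finset.mem_powerset.1 hx
    have h2 : i ∉ x := fun h => hi (hxA h)
    rw [Finset.card_insert_of_notMem h2, Nat.add_sub_add_right, pow_succ]
    ring

lemma Ex_congr {p : ℝ} {A : Finset α} {g h : Finset α → ℝ} (H : ∀ x ⊆ A, g x = h x) :
    Ex p A g = Ex p A h := by
  unfold Ex
  refine Finset.sum_congr rfl fun x hx => ?_
  rw [H x (Finset.mem_powerset.1 hx)]

lemma Ex_add (p : ℝ) (A : Finset α) (g h : Finset α → ℝ) :
    Ex p A (fun x => g x + h x) = Ex p A g + Ex p A h := by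
  unfold Ex
  rw [← Finset.sum_add_distrib]
  refine Finset.sum_congr rfl fun x _ => by ring

lemma Ex_sub (p : ℝ) (A : Finset α) (g h : Finset α → ℝ) :
    Ex p A (fun x => g x - h x) = Ex p A g - Ex p A h := by
  unfold Ex
  rw [← Finset.sum_sub_distrib]
  refine Finset.sum_congr rfl fun x _ => by ring

lemma Ex_smul (p : ℝ) (A : Finset α) (c : ℝ) (g : Finset α → ℝ) :
    Ex p A (fun x => c * g x) = c * Ex p A g := by
  unfold Ex
  rw [Finset.mul_sum]
  refine Finset.sum_congr rfl fun x _ => by ring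

lemma Ex_sum {β : Type*} (p : ℝ) (A : Finset α) (s : Finset β) (g : β → Finset α → ℝ) :
    Ex p A (fun x => ∑ b ∈ s, g b x) = ∑ b ∈ s, Ex p A (g b) := by
  unfold Ex
  rw [Finset.sum_comm]
  refine Finset.sum_congr rfl fun x _ => ?_
  rw [Finset.mul_sum]

lemma Ex_const (p : ℝ) (A : Finset α) (c : ℝ) : Ex p A (fun _ => c) = c := by
  induction A using Finset.induction_on with
  | empty => rw [Ex_empty]
  | insert i A hi ih => rw [Ex_insert p hi, ih]; ring

lemma Ex_weight_nonneg {p : ℝ} (h0 : 0 ≤ p) (h1 : p ≤ 1) (A x : Finset α) :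
    0 ≤ p ^ x.card * (1 - p) ^ (A.card - x.card) :=
  mul_nonneg (pow_nonneg h0 _) (pow_nonneg (by linarith) _)

lemma Ex_mono {p : ℝ} (h0 : 0 ≤ p) (h1 : p ≤ 1) {A : Finset α} {g h : Finset α → ℝ}
    (H : ∀ x ⊆ A, g x ≤ h x) : Ex p A g ≤ Ex p A h := by
  unfold Ex
  refine Finset.sum_le_sum fun x hx => ?_
  exact mul_le_mul_of_nonneg_left (H x (Finset.mem_powerset.1 hx)) (Ex_weight_nonneg h0 h1 A x)

lemma Ex_nonneg {p : ℝ} (h0 : 0 ≤ p) (h1 : p ≤ 1) {A : Finset α} {g : Finset α → ℝ}
    (H : ∀ x ⊆ A, 0 ≤ g x) : 0 ≤ Ex p A g := by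
  unfold Ex
  exact Finset.sum_nonneg fun x hx =>
    mul_nonneg (Ex_weight_nonneg h0 h1 A x) (H x (Finset.mem_powerset.1 hx))

/-- Cauchy-Schwarz -/
lemma Ex_cs {p : ℝ} (h0 : 0 ≤ p) (h1 : p ≤ 1) (A : Finset α) (g h : Finset α → ℝ) :
    (Ex p A (fun x => g x * h x)) ^ 2 ≤
      Ex p A (fun x => g x ^ 2) * Ex p A (fun x => h x ^ 2) := by
  unfold Ex
  have key := Finset.sum_mul_sq_le_sq_mul_sq A.powerset
    (fun x => Real.sqrt (p ^ x.card * (1 - p) ^ (A.card - x.card)) * g x)
    (fun x => Real.sqrt (p ^ x.card * (1 - p) ^ (A.card - x.card)) * h x)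
  have e1 : ∑ x ∈ A.powerset, (Real.sqrt (p ^ x.card * (1 - p) ^ (A.card - x.card)) * g x) *
      (Real.sqrt (p ^ x.card * (1 - p) ^ (A.card - x.card)) * h x) =
      ∑ x ∈ A.powerset, p ^ x.card * (1 - p) ^ (A.card - x.card) * (g x * h x) := by
    refine Finset.sum_congr rfl fun x _ => ?_
    have := Real.mul_self_sqrt (Ex_weight_nonneg h0 h1 A x)
    calc _ = (Real.sqrt (p ^ x.card * (1 - p) ^ (A.card - x.card)) *
          Real.sqrt (p ^ x.card * (1 - p) ^ (A.card - x.card))) * (g x * h x) := by ring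
      _ = _ := by rw [this]
  have e2 : ∀ u : Finset α → ℝ, ∑ x ∈ A.powerset,
      (Real.sqrt (p ^ x.card * (1 - p) ^ (A.card - x.card)) * u x) ^ 2 =
      ∑ x ∈ A.powerset, p ^ x.card * (1 - p) ^ (A.card - x.card) * (u x) ^ 2 := by
    intro u
    refine Finset.sum_congr rfl fun x _ => ?_
    rw [mul_pow, Real.sq_sqrt (Ex_weight_nonneg h0 h1 A x)]
  rw [e1, e2, e2] at key
  exact key

/-- splitting a random subset of a disjoint union -/
lemma Ex_union (p : ℝ) (A B : Finset α) (hd : Disjoint A B) (g : Finset α → ℝ) :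
    Ex p (A ∪ B) g = Ex p B (fun z => Ex p A (fun y => g (y ∪ z))) := by
  induction A using Finset.induction_on generalizing g with
  | empty =>
    rw [Finset.empty_union]
    refine Ex_congr fun z _ => ?_
    rw [Ex_empty, Finset.empty_union]
  | insert i A hi ih =>
    have hdA : Disjoint A B := Finset.disjoint_of_subset_left (Finset.subset_insert i A) hd
    have hiB : i ∉ B := fun h =>
      (Finset.disjoint_left.1 hd) (Finset.mem_insert_self i A) h
    have hi2 : i ∉ A ∪ B := by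
      rw [Finset.mem_union]; tauto
    rw [Finset.insert_union, Ex_insert p hi2, ih hdA, ih hdA, ← Ex_smul, ← Ex_smul, ← Ex_add]
    refine Ex_congr fun z _ => ?_
    rw [Ex_insert p hi]
    congr 2
    refine Ex_congr fun y _ => ?_
    rw [Finset.insert_union]

/-- standard deviation of a coordinate -/
noncomputable def sg (p : ℝ) : ℝ := Real.sqrt (p * (1 - p))

lemma sg_pos {p : ℝ} (h0 : 0 < p) (h1 : p < 1) : 0 < sg p :=
  Real.sqrt_pos.2 (mul_pos h0 (by linarith))

lemma sg_sq {p : ℝ} (h0 : 0 < p) (h1 : p < 1) : sg p ^ 2 = p * (1 - p) :=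
  Real.sq_sqrt (mul_nonneg h0.le (by linarith))

lemma sg_le_half {p : ℝ} (h0 : 0 < p) (h1 : p < 1) : sg p ≤ 1 / 2 := by
  have h2 : sg p ^ 2 ≤ (1 / 2) ^ 2 := by
    rw [sg_sq h0 h1]
    nlinarith [sq_nonneg (p - 1 / 2)]
  exact le_of_sq_le_sq h2 (by norm_num)

/-- normalised coordinate -/
noncomputable def xi (p : ℝ) (i : α) (x : Finset α) : ℝ :=
  ((if i ∈ x then (1 : ℝ) else 0) - p) / sg p

/-- characters -/
noncomputable def chi (p : ℝ) (S : Finset α) (x : Finset α) : ℝ := ∏ i ∈ S, xi p i x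

/-- Fourier coefficients of a function on the subsets of `A` -/
noncomputable def co (p : ℝ) (A : Finset α) (g : Finset α → ℝ) (S : Finset α) : ℝ :=
  Ex p A (fun x => g x * chi p S x)

lemma chi_empty (p : ℝ) (x : Finset α) : chi p ∅ x = 1 := by simp [chi]

lemma chi_insert (p : ℝ) {i : α} {S : Finset α} (hi : i ∉ S) (x : Finset α) :
    chi p (insert i S) x = xi p i x * chi p S x := by
  unfold chi
  rw [Finset.prod_insert hi]

lemma xi_insert_self (p : ℝ) (i : α) (x : Finset α) : xi p i (insert i x) = (1 - p) / sg p := by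
  unfold xi
  rw [if_pos (Finset.mem_insert_self i x)]

lemma xi_of_notMem (p : ℝ) {i : α} {x : Finset α} (h : i ∉ x) : xi p i x = (0 - p) / sg p := by
  unfold xi
  rw [if_neg h]

lemma xi_insert_ne (p : ℝ) {i j : α} (h : i ≠ j) (x : Finset α) :
    xi p i (insert j x) = xi p i x := by
  unfold xi
  congr 2
  simp only [Finset.mem_insert, h, false_or]

lemma chi_insert_notMem (p : ℝ) {i : α} {S : Finset α} (hi : i ∉ S) (x : Finset α) :
    chi p S (insert i x) = chi p S x := by
  unfold chi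
  refine Finset.prod_congr rfl fun j hj => ?_
  apply xi_insert_ne
  rintro rfl
  exact hi hj

/-- coefficient recursion, set not containing the new coordinate -/
lemma co_insert_left (p : ℝ) {i : α} {A S : Finset α} (hi : i ∉ A) (hS : S ⊆ A)
    (g : Finset α → ℝ) :
    co p (insert i A) g S = co p A (fun x => (1 - p) * g x + p * g (insert i x)) S := by
  have hiS : i ∉ S := fun h => hi (hS h)
  unfold co
  rw [Ex_insert p hi, ← Ex_smul, ← Ex_smul, ← Ex_add]
  refine Ex_congr fun x _ => ?_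
  rw [chi_insert_notMem p hiS]
  ring

/-- coefficient recursion, set containing the new coordinate -/
lemma co_insert_right {p : ℝ} (h0 : 0 < p) (h1 : p < 1) {i : α} {A S : Finset α} (hi : i ∉ A)
    (hS : S ⊆ A) (g : Finset α → ℝ) :
    co p (insert i A) g (insert i S) = co p A (fun x => sg p * (g (insert i x) - g x)) S := by
  have hiS : i ∉ S := fun h => hi (hS h)
  have hs := sg_pos h0 h1
  have hs2 := sg_sq h0 h1
  unfold co
  rw [Ex_insert p hi, ← Ex_smul, ← Ex_smul, ← Ex_add]
  refine Ex_congr fun x hx => ?_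
  have hix : i ∉ x := fun h => hi (hx h)
  rw [chi_insert p hiS, chi_insert p hiS, chi_insert_notMem p hiS, xi_insert_self,
    xi_of_notMem p hix]
  have h2 : p * (1 - p) / sg p = sg p := by
    rw [← hs2, sq, mul_div_assoc, div_self hs.ne', mul_one]
  calc (1 - p) * (g x * ((0 - p) / sg p * chi p S x)) +
      p * (g (insert i x) * ((1 - p) / sg p * chi p S x))
      = (p * (1 - p) / sg p) * (g (insert i x) - g x) * chi p S x := by ring
    _ = sg p * (g (insert i x) - g x) * chi p S x := by rw [h2]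

/-- Parseval -/
lemma parseval {p : ℝ} (h0 : 0 < p) (h1 : p < 1) (A : Finset α) (g : Finset α → ℝ) :
    ∑ S ∈ A.powerset, (co p A g S) ^ 2 = Ex p A (fun x => g x ^ 2) := by
  induction A using Finset.induction_on generalizing g with
  | empty => simp [co, Ex_empty, chi_empty]
  | insert i A hi ih =>
    rw [Finset.sum_powerset_insert hi, Ex_insert p hi]
    have e1 : ∑ S ∈ A.powerset, co p (insert i A) g S ^ 2 =
        Ex p A (fun x => ((1 - p) * g x + p * g (insert i x)) ^ 2) := by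
      rw [← ih]
      refine Finset.sum_congr rfl fun S hS => ?_
      rw [co_insert_left p hi (Finset.mem_powerset.1 hS)]
    have e2 : ∑ S ∈ A.powerset, co p (insert i A) g (insert i S) ^ 2 =
        Ex p A (fun x => (sg p * (g (insert i x) - g x)) ^ 2) := by
      rw [← ih]
      refine Finset.sum_congr rfl fun S hS => ?_
      rw [co_insert_right h0 h1 hi (Finset.mem_powerset.1 hS)]
    rw [e1, e2, ← Ex_smul, ← Ex_smul, ← Ex_add, ← Ex_add]
    refine Ex_congr fun x _ => ?_
    rw [mul_pow, sg_sq h0 h1]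
    ring

/-- evaluation of a polynomial of degree at most `k` in the coordinates of `A` -/
noncomputable def ev (p : ℝ) (A : Finset α) (k : ℕ) (c : Finset α → ℝ) (x : Finset α) : ℝ :=
  ∑ S ∈ A.powerset.filter (fun S => S.card ≤ k), c S * chi p S x

lemma sum_filter_insert {β : Type*} [AddCommMonoid β] {i : α} {A : Finset α} (hi : i ∉ A) (k : ℕ)
    (F : Finset α → β) :
    ∑ S ∈ (insert i A).powerset.filter (fun S => S.card ≤ k), F S =
      ∑ S ∈ A.powerset.filter (fun S => S.card ≤ k), F S +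
      ∑ S ∈ A.powerset.filter (fun S => S.card + 1 ≤ k), F (insert i S) := by
  rw [Finset.sum_filter, Finset.sum_powerset_insert hi, Finset.sum_filter, Finset.sum_filter]
  congr 1
  refine Finset.sum_congr rfl fun S hS => ?_
  have : i ∉ S := fun h => hi (Finset.mem_powerset.1 hS h)
  rw [Finset.card_insert_of_notMem this]

lemma ev_zero_insert (p : ℝ) {i : α} {A : Finset α} (hi : i ∉ A) (c : Finset α → ℝ)
    (x : Finset α) : ev p (insert i A) 0 c x = ev p A 0 c x := by
  unfold ev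
  rw [sum_filter_insert hi, Finset.filter_false_of_mem (s := A.powerset)
    (p := fun S : Finset α => S.card + 1 ≤ 0) (fun S _ => by omega), Finset.sum_empty, add_zero]

lemma ev_succ_insert (p : ℝ) {i : α} {A : Finset α} (hi : i ∉ A) (k : ℕ) (c : Finset α → ℝ)
    (x : Finset α) : ev p (insert i A) (k + 1) c x =
      ev p A (k + 1) c x + xi p i x * ev p A k (fun S => c (insert i S)) x := by
  unfold ev
  rw [sum_filter_insert hi, Finset.mul_sum]
  congr 1
  have h1 : A.powerset.filter (fun S : Finset α => S.card + 1 ≤ k + 1) =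
      A.powerset.filter (fun S : Finset α => S.card ≤ k) := by
    apply Finset.filter_congr
    intro S _
    omega
  rw [h1]
  refine Finset.sum_congr rfl fun S hS => ?_
  have hiS : i ∉ S := fun h => hi (Finset.mem_powerset.1 (Finset.mem_filter.1 hS).1 h)
  rw [chi_insert p hiS]
  ring

lemma ev_insert_notMem (p : ℝ) {i : α} {A : Finset α} (hi : i ∉ A) (k : ℕ) (c : Finset α → ℝ)
    (x : Finset α) : ev p A k c (insert i x) = ev p A k c x := by
  unfold ev
  refine Finset.sum_congr rfl fun S hS => ?_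
  have hiS : i ∉ S := fun h => hi (Finset.mem_powerset.1 (Finset.mem_filter.1 hS).1 h)
  rw [chi_insert_notMem p hiS]

/-- sum of squares of the coefficients of degree at most `k` -/
noncomputable def ssq (A : Finset α) (k : ℕ) (c : Finset α → ℝ) : ℝ :=
  ∑ S ∈ A.powerset.filter (fun S => S.card ≤ k), c S ^ 2

lemma ssq_nonneg (A : Finset α) (k : ℕ) (c : Finset α → ℝ) : 0 ≤ ssq A k c :=
  Finset.sum_nonneg fun _ _ => sq_nonneg _

lemma ssq_zero_insert {i : α} {A : Finset α} (hi : i ∉ A) (c : Finset α → ℝ) :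
    ssq (insert i A) 0 c = ssq A 0 c := by
  unfold ssq
  rw [sum_filter_insert hi, Finset.filter_false_of_mem (s := A.powerset)
    (p := fun S : Finset α => S.card + 1 ≤ 0) (fun S _ => by omega), Finset.sum_empty, add_zero]

lemma ssq_succ_insert {i : α} {A : Finset α} (hi : i ∉ A) (k : ℕ) (c : Finset α → ℝ) :
    ssq (insert i A) (k + 1) c = ssq A (k + 1) c + ssq A k (fun S => c (insert i S)) := by
  unfold ssq
  rw [sum_filter_insert hi]
  congr 1
  have h1 : A.powerset.filter (fun S : Finset α => S.card + 1 ≤ k + 1) =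
      A.powerset.filter (fun S : Finset α => S.card ≤ k) := by
    apply Finset.filter_congr
    intro S _
    omega
  rw [h1]

lemma two_point_sq {p : ℝ} (h0 : 0 < p) (h1 : p < 1) (u v : ℝ) :
    (1 - p) * (u + (0 - p) / sg p * v) ^ 2 + p * (u + (1 - p) / sg p * v) ^ 2 =
      u ^ 2 + v ^ 2 := by
  have hs := sg_pos h0 h1
  have hs2 := sg_sq h0 h1
  have e : (p * (1 - p)) / (sg p) ^ 2 = 1 := by rw [← hs2]; exact div_self (by positivity)
  calc (1 - p) * (u + (0 - p) / sg p * v) ^ 2 + p * (u + (1 - p) / sg p * v) ^ 2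
      = u ^ 2 + (p * (1 - p)) / (sg p) ^ 2 * v ^ 2 := by field_simp; ring
    _ = u ^ 2 + v ^ 2 := by rw [e, one_mul]

lemma two_point_four {p : ℝ} (h0 : 0 < p) (h1 : p < 1) (u v : ℝ) :
    (1 - p) * (u + (0 - p) / sg p * v) ^ 4 + p * (u + (1 - p) / sg p * v) ^ 4 ≤
      u ^ 4 + 8 * (u ^ 2 * v ^ 2) + 3 / (sg p) ^ 2 * v ^ 4 := by
  have hs := sg_pos h0 h1
  have hs2 := sg_sq h0 h1
  set s := sg p with hsdef
  have e2 : (p * (1 - p)) / s ^ 2 = 1 := by rw [← hs2]; exact div_self (by positivity)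
  have e3 : (p * (1 - p)) / s ^ 3 = 1 / s := by
    rw [← hs2]; field_simp
  have e4 : (p * (1 - p)) / s ^ 4 = 1 / s ^ 2 := by
    rw [← hs2]; field_simp
  have key : (1 - p) * (u + (0 - p) / s * v) ^ 4 + p * (u + (1 - p) / s * v) ^ 4 =
      u ^ 4 + 6 * (u ^ 2 * v ^ 2) + 4 * ((1 - 2 * p) / s) * (u * v ^ 3)
        + (1 - 3 * (p * (1 - p))) / s ^ 2 * v ^ 4 := by
    calc (1 - p) * (u + (0 - p) / s * v) ^ 4 + p * (u + (1 - p) / s * v) ^ 4
        = u ^ 4 + 6 * ((p * (1 - p)) / s ^ 2) * (u ^ 2 * v ^ 2)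
          + 4 * ((p * (1 - p)) / s ^ 3 * (1 - 2 * p)) * (u * v ^ 3)
          + ((p * (1 - p)) / s ^ 4 * (1 - 3 * (p * (1 - p)))) * v ^ 4 := by
          field_simp; ring
      _ = _ := by rw [e2, e3, e4]; ring
  rw [key]
  have h5 : 0 ≤ 2 * (u * v - (1 - 2 * p) / s * v ^ 2) ^ 2 := by positivity
  have h6 : 2 * (u * v - (1 - 2 * p) / s * v ^ 2) ^ 2 = 2 * (u ^ 2 * v ^ 2)
      - 4 * ((1 - 2 * p) / s) * (u * v ^ 3) + 2 * ((1 - 2 * p) ^ 2 / s ^ 2) * v ^ 4 := by
    field_simp
    ring
  have h7 : (1 - 3 * (p * (1 - p))) / s ^ 2 * v ^ 4 + 2 * ((1 - 2 * p) ^ 2 / s ^ 2) * v ^ 4 ≤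
      3 / s ^ 2 * v ^ 4 := by
    have h8 : (1 - 3 * (p * (1 - p))) / s ^ 2 * v ^ 4 + 2 * ((1 - 2 * p) ^ 2 / s ^ 2) * v ^ 4 =
        (3 - 11 * (p * (1 - p))) / s ^ 2 * v ^ 4 := by ring
    rw [h8]
    have h9 : 0 ≤ p * (1 - p) := mul_nonneg h0.le (by linarith)
    apply mul_le_mul_of_nonneg_right _ (by positivity)
    apply div_le_div_of_nonneg_right _ (by positivity)
    linarith
  linarith

lemma Ex_ev_sq {p : ℝ} (h0 : 0 < p) (h1 : p < 1) (A : Finset α) (k : ℕ) (c : Finset α → ℝ) :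
    Ex p A (fun x => ev p A k c x ^ 2) = ssq A k c := by
  induction A using Finset.induction_on generalizing k c with
  | empty =>
    rw [Ex_empty]
    unfold ev ssq
    rw [Finset.powerset_empty, Finset.filter_true_of_mem (by simp)]
    simp [chi_empty]
  | insert i A hi ih =>
    rw [Ex_insert p hi]
    cases k with
    | zero =>
      rw [ssq_zero_insert hi, ← ih, ← Ex_smul, ← Ex_smul, ← Ex_add]
      refine Ex_congr fun x _ => ?_
      rw [ev_zero_insert p hi, ev_zero_insert p hi, ev_insert_notMem p hi]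
      ring
    | succ k =>
      rw [ssq_succ_insert hi, ← ih, ← ih, ← Ex_smul, ← Ex_smul, ← Ex_add, ← Ex_add]
      refine Ex_congr fun x hx => ?_
      have hix : i ∉ x := fun h => hi (hx h)
      rw [ev_succ_insert p hi, ev_succ_insert p hi, ev_insert_notMem p hi,
        ev_insert_notMem p hi, xi_insert_self, xi_of_notMem p hix]
      exact two_point_sq h0 h1 _ _

/-- Bonami inequality for the `p`-biased cube -/
lemma bonami {p : ℝ} (h0 : 0 < p) (h1 : p < 1) (A : Finset α) (k : ℕ) (c : Finset α → ℝ) :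
    Ex p A (fun x => ev p A k c x ^ 4) ≤ ((4 / sg p) ^ k * ssq A k c) ^ 2 := by
  have hs := sg_pos h0 h1
  have hsh := sg_le_half h0 h1
  induction A using Finset.induction_on generalizing k c with
  | empty =>
    rw [Ex_empty]
    have e1 : ev p ∅ k c ∅ = c ∅ := by
      unfold ev
      rw [Finset.powerset_empty, Finset.filter_true_of_mem (by simp)]
      simp [chi_empty]
    have e2 : ssq (∅ : Finset α) k c = c ∅ ^ 2 := by
      unfold ssq
      rw [Finset.powerset_empty, Finset.filter_true_of_mem (by simp)]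
      simp
    rw [e1, e2, mul_pow]
    have h3 : (1 : ℝ) ≤ 4 / sg p := by
      rw [le_div_iff₀ hs]; linarith
    have h4 : (1 : ℝ) ≤ ((4 / sg p) ^ k) ^ 2 := one_le_pow₀ (one_le_pow₀ h3)
    calc c ∅ ^ 4 = 1 * (c ∅ ^ 2) ^ 2 := by ring
      _ ≤ ((4 / sg p) ^ k) ^ 2 * (c ∅ ^ 2) ^ 2 :=
          mul_le_mul_of_nonneg_right h4 (by positivity)
  | insert i A hi ih =>
    rw [Ex_insert p hi]
    cases k with
    | zero =>
      rw [ssq_zero_insert hi]
      refine le_trans (le_of_eq ?_) (ih 0 c)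
      rw [← Ex_smul, ← Ex_smul, ← Ex_add]
      refine Ex_congr fun x _ => ?_
      rw [ev_zero_insert p hi, ev_zero_insert p hi, ev_insert_notMem p hi]
      ring
    | succ k =>
      set u : Finset α → ℝ := fun x => ev p A (k + 1) c x with hu
      set v : Finset α → ℝ := fun x => ev p A k (fun S => c (insert i S)) x with hv
      set U := ssq A (k + 1) c with hU
      set W := ssq A k (fun S => c (insert i S)) with hW
      have hU0 : 0 ≤ U := ssq_nonneg _ _ _
      have hW0 : 0 ≤ W := ssq_nonneg _ _ _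
      have step1 : (1 - p) * Ex p A (fun x => ev p (insert i A) (k + 1) c x ^ 4) +
          p * Ex p A (fun x => ev p (insert i A) (k + 1) c (insert i x) ^ 4) ≤
          Ex p A (fun x => u x ^ 4) + 8 * Ex p A (fun x => u x ^ 2 * v x ^ 2) +
            3 / (sg p) ^ 2 * Ex p A (fun x => v x ^ 4) := by
        rw [← Ex_smul, ← Ex_smul, ← Ex_smul, ← Ex_smul, ← Ex_add, ← Ex_add, ← Ex_add]
        refine Ex_mono h0.le h1.le fun x hx => ?_
        have hix : i ∉ x := fun h => hi (hx h)
        rw [ev_succ_insert p hi, ev_succ_insert p hi, ev_insert_notMem p hi,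
          ev_insert_notMem p hi, xi_insert_self, xi_of_notMem p hix]
        exact two_point_four h0 h1 _ _
      set b := 4 / sg p with hb
      have hb0 : 0 < b := by positivity
      have hb8 : 8 ≤ b := by rw [hb, le_div_iff₀ hs]; linarith
      have hu4 : Ex p A (fun x => u x ^ 4) ≤ (b ^ (k + 1) * U) ^ 2 := ih (k + 1) c
      have hv4 : Ex p A (fun x => v x ^ 4) ≤ (b ^ k * W) ^ 2 :=
        ih k (fun S => c (insert i S))
      have hu4n : 0 ≤ Ex p A (fun x => u x ^ 4) := Ex_nonneg h0.le h1.le fun x _ => by positivity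
      have hv4n : 0 ≤ Ex p A (fun x => v x ^ 4) := Ex_nonneg h0.le h1.le fun x _ => by positivity
      have huv : Ex p A (fun x => u x ^ 2 * v x ^ 2) ≤ (b ^ (k + 1) * U) * (b ^ k * W) := by
        have hcs := Ex_cs h0.le h1.le A (fun x => u x ^ 2) (fun x => v x ^ 2)
        have e1 : Ex p A (fun x => (u x ^ 2) ^ 2) = Ex p A (fun x => u x ^ 4) :=
          Ex_congr fun x _ => by ring
        have e2 : Ex p A (fun x => (v x ^ 2) ^ 2) = Ex p A (fun x => v x ^ 4) :=
          Ex_congr fun x _ => by ring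
        rw [e1, e2] at hcs
        have h3 : (Ex p A (fun x => u x ^ 2 * v x ^ 2)) ^ 2 ≤
            ((b ^ (k + 1) * U) * (b ^ k * W)) ^ 2 := by
          refine hcs.trans ?_
          rw [mul_pow (b ^ (k + 1) * U)]
          exact mul_le_mul hu4 hv4 hv4n (by positivity)
        exact le_of_sq_le_sq h3 (by positivity)
      have h9 : 3 / (sg p) ^ 2 = 3 / 16 * b ^ 2 := by
        rw [hb]; field_simp; norm_num
      rw [ssq_succ_insert hi]
      refine step1.trans ?_
      have h10 : 8 * Ex p A (fun x => u x ^ 2 * v x ^ 2) ≤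
          b * ((b ^ (k + 1) * U) * (b ^ k * W)) := by
        have h11 : 0 ≤ (b ^ (k + 1) * U) * (b ^ k * W) := by positivity
        calc 8 * Ex p A (fun x => u x ^ 2 * v x ^ 2)
            ≤ 8 * ((b ^ (k + 1) * U) * (b ^ k * W)) := by linarith
          _ ≤ b * ((b ^ (k + 1) * U) * (b ^ k * W)) := mul_le_mul_of_nonneg_right hb8 h11
      have h12 : 3 / (sg p) ^ 2 * Ex p A (fun x => v x ^ 4) ≤
          3 / 16 * b ^ 2 * (b ^ k * W) ^ 2 := by
        rw [h9]
        exact mul_le_mul_of_nonneg_left hv4 (by positivity)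
      have h13 : b * ((b ^ (k + 1) * U) * (b ^ k * W)) = (b ^ (k + 1)) ^ 2 * (U * W) := by ring
      have h14 : 3 / 16 * b ^ 2 * (b ^ k * W) ^ 2 = 3 / 16 * ((b ^ (k + 1)) ^ 2 * W ^ 2) := by ring
      have h15 : 0 ≤ (b ^ (k + 1)) ^ 2 * W ^ 2 := by positivity
      have h16 : 0 ≤ (b ^ (k + 1)) ^ 2 * (U * W) := by positivity
      calc Ex p A (fun x => u x ^ 4) + 8 * Ex p A (fun x => u x ^ 2 * v x ^ 2) +
            3 / (sg p) ^ 2 * Ex p A (fun x => v x ^ 4)
          ≤ (b ^ (k + 1) * U) ^ 2 + (b ^ (k + 1)) ^ 2 * (U * W) +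
            3 / 16 * ((b ^ (k + 1)) ^ 2 * W ^ 2) := by linarith
        _ ≤ (b ^ (k + 1) * (U + W)) ^ 2 := by nlinarith

end Vale.Agent.P063
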