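import Mathlib

namespace Vale.Agent.P063

open Finset

/-- the edges of the complete `r`-uniform hypergraph on `n` labelled vertices -/
abbrev Edge (r n : ℕ) : Type := {e : Finset (Fin n) // e.card = r}

/-- an `r`-uniform hypergraph on `n` labelled vertices, given by its set of edges -/
abbrev Hyp (r n : ℕ) : Type := Finset (Edge r n)

/-- the edge `e` after the vertices are permuted by `τ` -/
def permEdge {r n : ℕ} (τ : Equiv.Perm (Fin n)) (e : Edge r n) : Edge r n :=
  ⟨e.1.map τ.toEmbedding, by rw [Finset.card_map]; exact e.2⟩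

/-- the hypergraph `G` after the vertices are permuted by `τ` -/
def relabel {r n : ℕ} (τ : Equiv.Perm (Fin n)) (G : Hyp r n) : Hyp r n :=
  G.image (permEdge τ)

/-- a hypergraph property is a set of hypergraphs closed under permutations of the vertices -/
def IsProperty {r n : ℕ} (P : Set (Hyp r n)) : Prop :=
  ∀ (τ : Equiv.Perm (Fin n)) (G : Hyp r n), G ∈ P → relabel τ G ∈ P

/-- adding edges preserves membership -/
def Increasing {r n : ℕ} (P : Set (Hyp r n)) : Prop :=
  ∀ G H : Hyp r n, G ⊆ H → G ∈ P → H ∈ P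

open Classical in
/-- probability that the random hypergraph with edge probability `p` lies in `P` -/
noncomputable def mu {r n : ℕ} (p : ℝ) (P : Set (Hyp r n)) : ℝ :=
  ∑ G : Hyp r n, if G ∈ P then
    p ^ G.card * (1 - p) ^ (Fintype.card (Edge r n) - G.card) else 0

/-- the first `p` with `mu p P ≥ a` -/
noncomputable def pth {r n : ℕ} (a : ℝ) (P : Set (Hyp r n)) : ℝ :=
  sInf {p : ℝ | 0 ≤ p ∧ p ≤ 1 ∧ a ≤ mu p P}

/-- the threshold width -/
noncomputable def width {r n : ℕ} (ε : ℝ) (P : Set (Hyp r n)) : ℝ :=
  pth (1 - ε) P - pth ε P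

open Classical in
/-- total influence at `p`: expected number of edges `e` whose insertion or deletion changes
membership in `P` -/
noncomputable def totInf {r n : ℕ} (p : ℝ) (P : Set (Hyp r n)) : ℝ :=
  ∑ e : Edge r n, mu p {G : Hyp r n | ¬ (insert e G ∈ P ↔ G.erase e ∈ P)}

end Vale.Agent.P063
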