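import Mathlib

namespace Vale.Agent.P063

open Filter Topology

theorem num_tendsto (a : ℝ) (ha : 0 < a) (m : ℕ) (c : ℝ) :
    Tendsto (fun n : ℕ => c * ((Real.log n) ^ m / (n : ℝ) ^ a)) atTop (𝓝 0) := by
  have h1 := (isLittleO_log_rpow_rpow_atTop (m : ℝ) ha).tendsto_div_nhds_zero
  have h2 : Tendsto (fun n : ℕ => (Real.log n) ^ m / (n : ℝ) ^ a) atTop (𝓝 0) := by
    refine (h1.comp tendsto_natCast_atTop_atTop).congr fun n => ?_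
    simp only [Function.comp_apply, Real.rpow_natCast]
  simpa using h2.const_mul c

theorem num_ev_le (a : ℝ) (ha : 0 < a) (m : ℕ) (c : ℝ) :
    ∀ᶠ n : ℕ in atTop, c * (Real.log n) ^ m ≤ (n : ℝ) ^ a := by
  have ht := num_tendsto a ha m c
  filter_upwards [ht.eventually_le_const one_pos, eventually_gt_atTop 0] with n hn hn0
  have hn0' : (0 : ℝ) < n := by exact_mod_cast hn0
  rw [mul_div_assoc', div_le_one (by positivity)] at hn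
  exact hn

theorem num_eventually (r : ℕ) :
    ∀ᶠ n : ℕ in atTop, 16 * Real.log 4 ≤ Real.log n ∧ 1 ≤ Real.log n ∧
      ((r : ℝ) + 1) * (r * (Real.log n) ^ 2) ≤ n ∧
      32 * r * (Real.log n) ^ 4 ≤ (n : ℝ) ^ (1 / 8 : ℝ) ∧
      32 * r * √(2 * r) * (Real.log n) ^ 5 ≤ (n : ℝ) ^ (1 / 4 : ℝ) := by
  have hlog : Tendsto (fun n : ℕ => Real.log n) atTop atTop :=
    Real.tendsto_log_atTop.comp tendsto_natCast_atTop_atTop
  filter_upwards [hlog.eventually_ge_atTop (16 * Real.log 4), hlog.eventually_ge_atTop 1,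
    num_ev_le 1 one_pos 2 (((r : ℝ) + 1) * r),
    num_ev_le (1 / 8) (by norm_num) 4 (32 * r),
    num_ev_le (1 / 4) (by norm_num) 5 (32 * r * √(2 * r))]
    with n a b c d e
  refine ⟨a, b, ?_, d, e⟩
  rw [Real.rpow_one] at c
  linarith

theorem num_sqrt (r M n : ℕ) (hr : 2 ≤ r) (hM0 : 0 < M) (hn1 : (0 : ℝ) < n) (ℓ : ℝ)
    (hℓ0 : 0 < ℓ) (hMℓ : (M : ℝ) ≤ ℓ ^ 2) (hH3 : (r + 1) * (r * M) ≤ n) :
    √((n : ℝ) ^ (1 / 4 : ℝ) / ((n / (r * M) : ℕ) : ℝ)) ≤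
      √(2 * r) * ℓ / (n : ℝ) ^ (3 / 8 : ℝ) := by
  have hq0 : 0 < r * M := Nat.mul_pos (by omega) hM0
  have hq0' : (0 : ℝ) < (r : ℝ) * M := by exact_mod_cast hq0
  have hr0 : (0 : ℝ) < r := by
    have : 0 < r := by omega
    exact_mod_cast this
  have hdiv1 : 1 ≤ n / (r * M) := by
    rw [Nat.one_le_div_iff hq0]
    exact le_trans (Nat.le_mul_of_pos_left _ (by omega)) hH3
  have hdiv3 : (1 : ℝ) ≤ ((n / (r * M) : ℕ) : ℝ) := by exact_mod_cast hdiv1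
  have hdiv2 : (n : ℝ) / (2 * (r * M)) ≤ ((n / (r * M) : ℕ) : ℝ) := by
    have h1 : n < r * M * (n / (r * M) + 1) := Nat.lt_mul_div_succ n hq0
    have h2 : (n : ℝ) < r * M * (((n / (r * M) : ℕ) : ℝ) + 1) := by exact_mod_cast h1
    rw [div_le_iff₀ (by positivity)]
    nlinarith
  have hdiv4 : (n : ℝ) / ((2 * r) * ℓ ^ 2) ≤ ((n / (r * M) : ℕ) : ℝ) := by
    refine le_trans ?_ hdiv2
    apply div_le_div_of_nonneg_left hn1.le (by positivity)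
    nlinarith
  have h5 : (n : ℝ) ^ (1 / 4 : ℝ) / ((n / (r * M) : ℕ) : ℝ) ≤
      (n : ℝ) ^ (1 / 4 : ℝ) / ((n : ℝ) / ((2 * r) * ℓ ^ 2)) :=
    div_le_div_of_nonneg_left (by positivity) (by positivity) hdiv4
  have h6 : (n : ℝ) ^ (1 / 4 : ℝ) / ((n : ℝ) / ((2 * r) * ℓ ^ 2)) =
      (√(2 * r) * ℓ / (n : ℝ) ^ (3 / 8 : ℝ)) ^ 2 := by
    rw [div_pow, mul_pow, Real.sq_sqrt (by positivity)]
    have h7 : (n : ℝ) = (n : ℝ) ^ (1 / 4 : ℝ) * ((n : ℝ) ^ (3 / 8 : ℝ)) ^ 2 := by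
      rw [← Real.rpow_natCast, ← Real.rpow_mul hn1.le, ← Real.rpow_add hn1]
      norm_num
    have h8 : (0 : ℝ) < (n : ℝ) ^ (1 / 4 : ℝ) := by positivity
    have h9 : (0 : ℝ) < ((n : ℝ) ^ (3 / 8 : ℝ)) ^ 2 := by positivity
    generalize (n : ℝ) ^ (1 / 4 : ℝ) = A at h7 h8 ⊢
    generalize ((n : ℝ) ^ (3 / 8 : ℝ)) ^ 2 = B at h7 h9 ⊢
    rw [h7]
    field_simp
  refine (Real.sqrt_le_sqrt (h5.trans_eq h6)).trans ?_
  rw [Real.sqrt_sq (by positivity)]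

theorem num_second (r M k n : ℕ) (hr : 2 ≤ r) (s : ℝ) (hs : 0 < s)
    (hn1 : (0 : ℝ) < n) (ℓ : ℝ) (c2 : 1 ≤ ℓ)
    (hns : (n : ℝ) ^ (-(1 / 8 : ℝ)) ≤ s ^ 2)
    (hpow : (4 / s) ^ k ≤ (n : ℝ) ^ (1 / 8 : ℝ)) (hMℓ : (M : ℝ) ≤ ℓ ^ 2)
    (hH3 : (r + 1) * (r * M) ≤ n)
    (c4 : 32 * r * ℓ ^ 4 ≤ (n : ℝ) ^ (1 / 8 : ℝ))
    (c5 : 32 * r * √(2 * r) * ℓ ^ 5 ≤ (n : ℝ) ^ (1 / 4 : ℝ)) :
    8 * ((r : ℝ) * M) *
      (1 / (n : ℝ) ^ (1 / 4 : ℝ) + s ^ 2 * (4 / s) ^ k *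
        √((n : ℝ) ^ (1 / 4 : ℝ) / ((n / (r * M) : ℕ) : ℝ))) ≤ s ^ 2 / (M + 1) := by
  have hℓ0 : 0 < ℓ := by linarith
  have hr0 : (0 : ℝ) < r := by
    have : 0 < r := by omega
    exact_mod_cast this
  rcases Nat.eq_zero_or_pos M with hM0 | hM0
  · have h0 : (M : ℝ) = 0 := by exact_mod_cast hM0
    rw [h0, mul_zero, mul_zero, zero_mul]
    positivity
  have hsq := num_sqrt r M n hr hM0 hn1 ℓ hℓ0 hMℓ hH3
  have hM1 : (0 : ℝ) < M := by exact_mod_cast hM0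
  have hMM : (M : ℝ) * (M + 1) ≤ 2 * ℓ ^ 4 := by
    have h1 : (1 : ℝ) ≤ ℓ ^ 2 := by nlinarith
    have h2 : (M : ℝ) * (M + 1) ≤ ℓ ^ 2 * (ℓ ^ 2 + ℓ ^ 2) := by
      apply mul_le_mul hMℓ (by linarith) (by positivity) (by positivity)
    linarith [h2, show ℓ ^ 2 * (ℓ ^ 2 + ℓ ^ 2) = 2 * ℓ ^ 4 by ring]
  have hB : (0 : ℝ) < (n : ℝ) ^ (1 / 8 : ℝ) := by positivity
  have hB3 : (0 : ℝ) < (n : ℝ) ^ (3 / 8 : ℝ) := by positivity
  have hneg : (n : ℝ) ^ (-(1 / 8 : ℝ)) = 1 / (n : ℝ) ^ (1 / 8 : ℝ) := by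
    rw [Real.rpow_neg hn1.le, one_div ((n : ℝ) ^ (1 / 8 : ℝ))]
  have h14 : (n : ℝ) ^ (1 / 4 : ℝ) = (n : ℝ) ^ (1 / 8 : ℝ) * (n : ℝ) ^ (1 / 8 : ℝ) := by
    rw [← Real.rpow_add hn1]; norm_num
  have h38 : (n : ℝ) ^ (3 / 8 : ℝ) =
      (n : ℝ) ^ (1 / 8 : ℝ) * (n : ℝ) ^ (1 / 8 : ℝ) * (n : ℝ) ^ (1 / 8 : ℝ) := by
    rw [← Real.rpow_add hn1, ← Real.rpow_add hn1]; norm_num
  rw [hneg] at hns
  have e1 : 8 * ((r : ℝ) * M) * (M + 1) * (1 / (n : ℝ) ^ (1 / 4 : ℝ)) ≤ s ^ 2 / 2 := by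
    rw [h14]
    have h1 : 8 * ((r : ℝ) * M) * (M + 1) ≤ (n : ℝ) ^ (1 / 8 : ℝ) / 2 := by
      have := mul_le_mul_of_nonneg_left hMM (show (0 : ℝ) ≤ 8 * r by positivity)
      linarith
    have h2 : 8 * ((r : ℝ) * M) * (M + 1) *
        (1 / ((n : ℝ) ^ (1 / 8 : ℝ) * (n : ℝ) ^ (1 / 8 : ℝ))) ≤
        (n : ℝ) ^ (1 / 8 : ℝ) / 2 * (1 / ((n : ℝ) ^ (1 / 8 : ℝ) * (n : ℝ) ^ (1 / 8 : ℝ))) :=
      mul_le_mul_of_nonneg_right h1 (by positivity)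
    refine h2.trans ?_
    have h3 : (n : ℝ) ^ (1 / 8 : ℝ) / 2 *
        (1 / ((n : ℝ) ^ (1 / 8 : ℝ) * (n : ℝ) ^ (1 / 8 : ℝ))) =
        1 / (n : ℝ) ^ (1 / 8 : ℝ) / 2 := by
      field_simp
    rw [h3]
    linarith
  have e2 : 8 * ((r : ℝ) * M) * (M + 1) * (s ^ 2 * (4 / s) ^ k *
      √((n : ℝ) ^ (1 / 4 : ℝ) / ((n / (r * M) : ℕ) : ℝ))) ≤ s ^ 2 / 2 := by
    have h1 : s ^ 2 * (4 / s) ^ k *
        √((n : ℝ) ^ (1 / 4 : ℝ) / ((n / (r * M) : ℕ) : ℝ)) ≤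
        s ^ 2 * (n : ℝ) ^ (1 / 8 : ℝ) * (√(2 * r) * ℓ / (n : ℝ) ^ (3 / 8 : ℝ)) := by
      apply mul_le_mul _ hsq (Real.sqrt_nonneg _) (by positivity)
      exact mul_le_mul_of_nonneg_left hpow (by positivity)
    have h2 : 8 * ((r : ℝ) * M) * (M + 1) ≤ 16 * r * ℓ ^ 4 := by
      have := mul_le_mul_of_nonneg_left hMM (show (0 : ℝ) ≤ 8 * r by positivity)
      linarith
    have h3 := mul_le_mul h2 h1 (by positivity) (by positivity)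
    refine h3.trans ?_
    have h4 : 16 * r * ℓ ^ 4 * (s ^ 2 * (n : ℝ) ^ (1 / 8 : ℝ) *
        (√(2 * r) * ℓ / (n : ℝ) ^ (3 / 8 : ℝ))) =
        (32 * r * √(2 * r) * ℓ ^ 5) * (s ^ 2 / 2 / (n : ℝ) ^ (1 / 4 : ℝ)) := by
      rw [h38, h14]
      field_simp
      ring
    rw [h4]
    have h50 : (0 : ℝ) < (n : ℝ) ^ (1 / 4 : ℝ) := by positivity
    have h5 : (n : ℝ) ^ (1 / 4 : ℝ) * (s ^ 2 / 2 / (n : ℝ) ^ (1 / 4 : ℝ)) = s ^ 2 / 2 :=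
      mul_div_cancel₀ _ h50.ne'
    have h6 := mul_le_mul_of_nonneg_right c5
      (show (0 : ℝ) ≤ s ^ 2 / 2 / (n : ℝ) ^ (1 / 4 : ℝ) by positivity)
    exact h6.trans_eq h5
  rw [le_div_iff₀ (by positivity)]
  calc _ = 8 * ((r : ℝ) * M) * (M + 1) * (1 / (n : ℝ) ^ (1 / 4 : ℝ)) +
      8 * ((r : ℝ) * M) * (M + 1) * (s ^ 2 * (4 / s) ^ k *
      √((n : ℝ) ^ (1 / 4 : ℝ) / ((n / (r * M) : ℕ) : ℝ))) := by ring
    _ ≤ s ^ 2 / 2 + s ^ 2 / 2 := add_le_add e1 e2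
    _ = s ^ 2 := by ring

theorem num_final (r : ℕ) (hr : 2 ≤ r) (s I V ℓ α z y Λ : ℝ) (k M : ℕ) (hs : 0 < s)
    (hI : 0 ≤ I) (hV : 0 ≤ V)
    (hℓ0 : 0 < ℓ) (hα1 : 0 < α) (hα2 : α ≤ 2) (hΛ1 : 1 ≤ Λ) (hΛ4 : s * Λ ≤ 4)
    (hz : z = (k : ℝ) / (4 * r)) (hy : y = ℓ / (8 * Λ)) (hky2 : y / 2 ≤ k)
    (hMz : z ^ α ≤ M + 1)
    (hmain : V ≤ I * (s ^ 2 / (M + 1) + s ^ 2 / (M + 1))) :
    1 / (32 * (64 * r) ^ 2) * ℓ ^ α * V ≤ I := by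
  have hr2 : (2 : ℝ) ≤ r := by exact_mod_cast hr
  have hr0 : (0 : ℝ) < r := by linarith
  have hΛ0 : 0 < Λ := by linarith
  have hMp : (0 : ℝ) < (M : ℝ) + 1 := by positivity
  have hzl : ℓ / (64 * r * Λ) ≤ z := by
    rw [hz, div_le_div_iff₀ (by positivity) (by positivity)]
    have h2 : ℓ ≤ k * (16 * Λ) := by
      have h3 : y * (8 * Λ) = ℓ := by rw [hy]; field_simp
      nlinarith
    nlinarith
  have h2 : (ℓ / (64 * r * Λ)) ^ α ≤ z ^ α :=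
    Real.rpow_le_rpow (by positivity) hzl hα1.le
  have h3 : (ℓ / (64 * r * Λ)) ^ α = ℓ ^ α / (64 * r * Λ) ^ α :=
    Real.div_rpow hℓ0.le (by positivity) α
  have hbase : 1 ≤ 64 * (r : ℝ) * Λ := by nlinarith
  have h4 : (64 * (r : ℝ) * Λ) ^ α ≤ (64 * r * Λ) ^ 2 := by
    have := Real.rpow_le_rpow_of_exponent_le hbase hα2
    rwa [Real.rpow_two] at this
  have h5 : ℓ ^ α ≤ (64 * r * Λ) ^ 2 * z ^ α := by
    rw [h3, div_le_iff₀ (by positivity)] at h2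
    refine h2.trans ?_
    rw [mul_comm]
    refine mul_le_mul_of_nonneg_right h4 ?_
    rw [hz]; positivity
  have h6 : ℓ ^ α ≤ (64 * r * Λ) ^ 2 * (M + 1) :=
    h5.trans (mul_le_mul_of_nonneg_left hMz (by positivity))
  have h7 : V * (M + 1) ≤ 2 * s ^ 2 * I := by
    have := mul_le_mul_of_nonneg_right hmain hMp.le
    refine this.trans (le_of_eq ?_)
    field_simp
    ring
  have h8 : ℓ ^ α * V ≤ (64 * r * Λ) ^ 2 * (2 * s ^ 2 * I) := by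
    calc ℓ ^ α * V ≤ (64 * r * Λ) ^ 2 * (M + 1) * V := mul_le_mul_of_nonneg_right h6 hV
      _ = (64 * r * Λ) ^ 2 * (V * (M + 1)) := by ring
      _ ≤ _ := mul_le_mul_of_nonneg_left h7 (by positivity)
  have h9 : (64 * r * Λ) ^ 2 * (2 * s ^ 2 * I) ≤ 32 * (64 * r) ^ 2 * I := by
    have e1 : (64 * r * Λ) ^ 2 * (2 * s ^ 2 * I) = (s * Λ) ^ 2 * (2 * (64 * r) ^ 2 * I) := by
      ring
    have e2 : (s * Λ) ^ 2 ≤ 16 := by
      have : 0 ≤ s * Λ := by positivity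
      nlinarith
    rw [e1]
    have := mul_le_mul_of_nonneg_right e2 (show 0 ≤ 2 * (64 * (r : ℝ)) ^ 2 * I by positivity)
    linarith
  have h10 : ℓ ^ α * V ≤ 32 * (64 * r) ^ 2 * I := h8.trans h9
  rw [mul_assoc, one_div, inv_mul_le_iff₀ (by positivity)]
  exact h10

theorem num_L (n : ℕ) (s : ℝ) (hs : 0 < s) (hs2 : s ≤ 1 / 2)
    (hns : (n : ℝ) ^ (-(1 / 8 : ℝ)) ≤ s ^ 2) (hn1 : (0 : ℝ) < n)
    (c1 : 16 * Real.log 4 ≤ Real.log n) :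
    1 ≤ Real.log (4 / s) ∧ s * Real.log (4 / s) ≤ 4 ∧ 8 * Real.log (4 / s) ≤ Real.log n := by
  have h4s : (8 : ℝ) ≤ 4 / s := by
    rw [le_div_iff₀ hs]; linarith
  refine ⟨?_, ?_, ?_⟩
  · rw [Real.le_log_iff_exp_le (by positivity)]
    have := Real.exp_one_lt_d9
    linarith
  · have h1 : Real.log (4 / s) ≤ 4 / s := by
      have := Real.log_le_sub_one_of_pos (show (0 : ℝ) < 4 / s by positivity)
      linarith
    have h2 := mul_le_mul_of_nonneg_left h1 hs.le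
    rw [mul_div_cancel₀ _ hs.ne'] at h2
    exact h2
  · have h1 : -(1 / 8) * Real.log n ≤ 2 * Real.log s := by
      have h2 := Real.log_le_log (by positivity) hns
      rw [Real.log_rpow hn1, Real.log_pow] at h2
      push_cast at h2
      linarith
    have h3 : Real.log (4 / s) = Real.log 4 - Real.log s := by
      rw [Real.log_div (by norm_num) hs.ne']
    rw [h3]
    linarith

theorem num_k (n : ℕ) (s Λ : ℝ) (hs : 0 < s) (hn1 : (0 : ℝ) < n)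
    (hΛ : Λ = Real.log (4 / s)) (hΛ1 : 1 ≤ Λ) (hΛℓ : 8 * Λ ≤ Real.log n) :
    ∃ k : ℕ, 1 ≤ k ∧ (Real.log n / (8 * Λ)) / 2 ≤ k ∧ (k : ℝ) ≤ Real.log n ∧
      (4 / s) ^ k ≤ (n : ℝ) ^ (1 / 8 : ℝ) := by
  have hΛ0 : 0 < Λ := by linarith
  have hy1 : 1 ≤ Real.log n / (8 * Λ) := by
    rw [le_div_iff₀ (by positivity)]; linarith
  have hk1 : 1 ≤ ⌊Real.log n / (8 * Λ)⌋₊ := Nat.one_le_floor_iff _ |>.mpr hy1
  have hky : (⌊Real.log n / (8 * Λ)⌋₊ : ℝ) ≤ Real.log n / (8 * Λ) :=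
    Nat.floor_le (by linarith)
  refine ⟨⌊Real.log n / (8 * Λ)⌋₊, hk1, ?_, ?_, ?_⟩
  · have h1 : Real.log n / (8 * Λ) < (⌊Real.log n / (8 * Λ)⌋₊ : ℝ) + 1 :=
      Nat.lt_floor_add_one _
    have h2 : (1 : ℝ) ≤ (⌊Real.log n / (8 * Λ)⌋₊ : ℝ) := by exact_mod_cast hk1
    linarith
  · refine hky.trans ?_
    rw [div_le_iff₀ (by positivity)]
    nlinarith
  · have h0 : (0 : ℝ) < 4 / s := by positivity
    rw [← Real.rpow_natCast, Real.rpow_def_of_pos h0, Real.rpow_def_of_pos hn1,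
      Real.exp_le_exp, ← hΛ]
    have h2 := mul_le_mul_of_nonneg_right hky hΛ0.le
    have h3 : Real.log n / (8 * Λ) * Λ = Real.log n / 8 := by
      field_simp
    linarith

theorem num_wM (r k : ℕ) (hr : 2 ≤ r) (hk1 : 1 ≤ k) :
    ∃ w M : ℕ, 4 * r * w ^ (r - 1) ≤ k ∧ 4 * r * M ≤ (w + 1) * k ∧
      ((k : ℝ) / (4 * r)) ^ ((r : ℝ) / ((r : ℝ) - 1)) ≤ M + 1 ∧ (M : ℝ) ≤ (k : ℝ) ^ 2 := by
  have hr2 : (2 : ℝ) ≤ r := by exact_mod_cast hr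
  have hr1 : (0 : ℝ) < (r : ℝ) - 1 := by linarith
  have hk0 : (1 : ℝ) ≤ k := by exact_mod_cast hk1
  have hz0 : 0 < (k : ℝ) / (4 * r) := by positivity
  have h3z : (4 * r : ℝ) * ((k : ℝ) / (4 * r)) = k := by field_simp
  obtain ⟨z, hz⟩ : ∃ z : ℝ, z = (k : ℝ) / (4 * r) := ⟨_, rfl⟩
  obtain ⟨β, hβ⟩ : ∃ β : ℝ, β = 1 / ((r : ℝ) - 1) := ⟨_, rfl⟩
  rw [← hz] at hz0 h3z ⊢
  have hβ0 : 0 < β := by rw [hβ]; positivity
  have hzβ : 0 ≤ z ^ β := Real.rpow_nonneg hz0.le _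
  obtain ⟨w, hw⟩ : ∃ w : ℕ, w = ⌊z ^ β⌋₊ := ⟨_, rfl⟩
  have hwz : (w : ℝ) ≤ z ^ β := by rw [hw]; exact Nat.floor_le hzβ
  have hwz2 : z ^ β < w + 1 := by rw [hw]; exact Nat.lt_floor_add_one _
  have hrsub : ((r - 1 : ℕ) : ℝ) = (r : ℝ) - 1 := by
    rw [Nat.cast_sub (by omega), Nat.cast_one]
  have hwpow : (w : ℝ) ^ (r - 1) ≤ z := by
    have h1 : (w : ℝ) ^ (r - 1) ≤ (z ^ β) ^ (r - 1) :=
      pow_le_pow_left₀ (Nat.cast_nonneg _) hwz _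
    have h2 : (z ^ β) ^ (r - 1) = z := by
      rw [← Real.rpow_natCast, ← Real.rpow_mul hz0.le, hrsub, hβ, one_div,
        inv_mul_cancel₀ hr1.ne', Real.rpow_one]
    linarith
  have hH1 : 4 * r * w ^ (r - 1) ≤ k := by
    have h1 : (4 * r : ℝ) * (w : ℝ) ^ (r - 1) ≤ k := by
      have h2 := mul_le_mul_of_nonneg_left hwpow (show (0 : ℝ) ≤ 4 * r by positivity)
      linarith
    exact_mod_cast h1
  have hr4 : 0 < 4 * r := by omega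
  obtain ⟨M, hM⟩ : ∃ M : ℕ, M = ((w + 1) * k) / (4 * r) := ⟨_, rfl⟩
  have hH2 : 4 * r * M ≤ (w + 1) * k := by rw [hM]; exact Nat.mul_div_le _ _
  have hM1 : ((w : ℝ) + 1) * z < M + 1 := by
    have h1 : (w + 1) * k < 4 * r * (M + 1) := by
      rw [hM]
      exact Nat.lt_mul_div_succ _ hr4
    have h2 : ((w : ℝ) + 1) * k < 4 * r * (M + 1) := by exact_mod_cast h1
    rw [hz, mul_div_assoc', div_lt_iff₀ (by positivity)]
    linarith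
  have hwk : (w : ℝ) ≤ k := by
    by_cases h : w = 0
    · have h' : (w : ℝ) = 0 := by exact_mod_cast h
      linarith
    · have h2 : w ≤ w ^ (r - 1) := Nat.le_self_pow (by omega) w
      have h3 : w ^ (r - 1) ≤ 4 * r * w ^ (r - 1) := Nat.le_mul_of_pos_left _ hr4
      exact_mod_cast h2.trans (h3.trans hH1)
  refine ⟨w, M, hH1, hH2, ?_, ?_⟩
  · have h1 : z ^ ((r : ℝ) / ((r : ℝ) - 1)) = z ^ β * z := by
      have : (r : ℝ) / ((r : ℝ) - 1) = β + 1 := by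
        rw [hβ]; field_simp; ring
      rw [this, Real.rpow_add hz0, Real.rpow_one]
    rw [h1]
    have := mul_lt_mul_of_pos_right hwz2 hz0
    linarith
  · have h1 : (4 * r : ℝ) * M ≤ (w + 1) * k := by exact_mod_cast hH2
    have h3 : ((w : ℝ) + 1) * k ≤ (2 * k) * k := by
      apply mul_le_mul_of_nonneg_right _ (by linarith)
      linarith
    have h5 : (0 : ℝ) ≤ M := Nat.cast_nonneg M
    nlinarith

theorem num_big (r : ℕ) (hr : 2 ≤ r) (n : ℕ) (s I V : ℝ) (hs : 0 < s) (hs2 : s ≤ 1 / 2)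
    (hI : 0 ≤ I) (hV : 0 ≤ V) (hns : (n : ℝ) ^ (-(1 / 8 : ℝ)) ≤ s ^ 2)
    (hn1 : (0 : ℝ) < n)
    (c1 : 16 * Real.log 4 ≤ Real.log n) (c2 : 1 ≤ Real.log n)
    (c3 : ((r : ℝ) + 1) * (r * (Real.log n) ^ 2) ≤ n)
    (c4 : 32 * r * (Real.log n) ^ 4 ≤ (n : ℝ) ^ (1 / 8 : ℝ))
    (c5 : 32 * r * √(2 * r) * (Real.log n) ^ 5 ≤ (n : ℝ) ^ (1 / 4 : ℝ))
    (H : ∀ (k M w : ℕ) (L : ℝ), 1 ≤ k → 0 < L → 4 * r * w ^ (r - 1) ≤ k →
        4 * r * M ≤ (w + 1) * k → (r + 1) * (r * M) ≤ n →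
        V ≤ I * (s ^ 2 / (M + 1) + 8 * (r * M) *
          (1 / L + s ^ 2 * (4 / s) ^ k * Real.sqrt (L / ((n / (r * M) : ℕ) : ℝ))))) :
    1 / (32 * (64 * r) ^ 2) * (Real.log n) ^ ((r : ℝ) / ((r : ℝ) - 1)) * V ≤ I := by
  obtain ⟨hΛ1, hΛ4, hΛℓ⟩ := num_L n s hs hs2 hns hn1 c1
  obtain ⟨k, hk1, hky2, hkℓ, hpow⟩ := num_k n s _ hs hn1 rfl hΛ1 hΛℓ
  obtain ⟨w, M, hH1, hH2, hMz, hMk⟩ := num_wM r k hr hk1
  have hr2 : (2 : ℝ) ≤ r := by exact_mod_cast hr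
  have hr1 : (0 : ℝ) < (r : ℝ) - 1 := by linarith
  have hα2 : (r : ℝ) / ((r : ℝ) - 1) ≤ 2 := by
    rw [div_le_iff₀ hr1]; linarith
  have hα1 : 0 < (r : ℝ) / ((r : ℝ) - 1) := div_pos (by linarith) hr1
  have hMℓ : (M : ℝ) ≤ (Real.log n) ^ 2 :=
    hMk.trans (pow_le_pow_left₀ (Nat.cast_nonneg _) hkℓ 2)
  have hH3 : (r + 1) * (r * M) ≤ n := by
    have h1 : ((r : ℝ) + 1) * (r * M) ≤ n := by
      refine le_trans ?_ c3
      gcongr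
    exact_mod_cast h1
  have hHH := H k M w ((n : ℝ) ^ (1 / 4 : ℝ)) hk1 (by positivity) hH1 hH2 hH3
  have hsec := num_second r M k n hr s hs hn1 (Real.log n) c2 hns hpow hMℓ hH3 c4 c5
  refine num_final r hr s I V (Real.log n) _ _ _ _ k M hs hI hV (by linarith) hα1 hα2 hΛ1 hΛ4
    rfl rfl hky2 hMz ?_
  refine hHH.trans (mul_le_mul_of_nonneg_left ?_ hI)
  linarith

/-- choice of the parameters -/
theorem num (r : ℕ) (hr : 2 ≤ r) :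
    ∃ c : ℝ, 0 < c ∧ ∀ n : ℕ, 2 ≤ n → ∀ s I V : ℝ, 0 < s → s ≤ 1 / 2 → 0 ≤ I → 0 ≤ V →
      (∀ (k M w : ℕ) (L : ℝ), 1 ≤ k → 0 < L → 4 * r * w ^ (r - 1) ≤ k →
        4 * r * M ≤ (w + 1) * k → (r + 1) * (r * M) ≤ n →
        V ≤ I * (s ^ 2 / (M + 1) + 8 * (r * M) *
          (1 / L + s ^ 2 * (4 / s) ^ k * Real.sqrt (L / ((n / (r * M) : ℕ) : ℝ))))) →
      c * (Real.log n) ^ ((r : ℝ) / ((r : ℝ) - 1)) * V ≤ I := by
  obtain ⟨n0, hn0⟩ := eventually_atTop.1 (num_eventually r)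
  have hr2 : (2 : ℝ) ≤ r := by exact_mod_cast hr
  have hr1 : (0 : ℝ) < (r : ℝ) - 1 := by linarith
  have hα2 : (r : ℝ) / ((r : ℝ) - 1) ≤ 2 := by
    rw [div_le_iff₀ hr1]; linarith
  have hα1 : 0 < (r : ℝ) / ((r : ℝ) - 1) := div_pos (by linarith) hr1
  have hpowle : ∀ x : ℝ, 0 ≤ x → x ^ ((r : ℝ) / ((r : ℝ) - 1)) ≤ x ^ 2 + 1 := by
    intro x hx
    rcases le_total x 1 with h | h
    · have := Real.rpow_le_one hx h hα1.le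
      nlinarith
    · have := Real.rpow_le_rpow_of_exponent_le h hα2
      rw [Real.rpow_two] at this
      linarith
  refine ⟨min (1 / (32 * (64 * r) ^ 2)) (1 / ((Real.log n0) ^ 2 + 1)),
    lt_min (by positivity) (by positivity), fun n hn s I V hs hs2 hI hV H => ?_⟩
  have hn2 : (2 : ℝ) ≤ n := by exact_mod_cast hn
  have hn1 : (0 : ℝ) < n := by linarith
  have hℓ0 : 0 < Real.log n := Real.log_pos (by linarith)
  have hP0 : 0 ≤ (Real.log n) ^ ((r : ℝ) / ((r : ℝ) - 1)) := Real.rpow_nonneg hℓ0.le _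
  have hbase : V ≤ I * s ^ 2 := by
    have h1 := H (4 * r) 0 0 1 (by omega) one_pos
      (by rw [zero_pow (by omega)]; omega) (by omega) (by omega)
    have h2 : I * (s ^ 2 / (((0 : ℕ) : ℝ) + 1) + 8 * (r * ((0 : ℕ) : ℝ)) *
          (1 / 1 + s ^ 2 * (4 / s) ^ (4 * r) *
            Real.sqrt (1 / ((n / (r * 0) : ℕ) : ℝ)))) = I * s ^ 2 := by
      rw [Nat.cast_zero, zero_add, div_one, mul_zero, mul_zero, zero_mul, add_zero]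
    rw [h2] at h1
    exact h1
  by_cases hnn : n0 ≤ n
  · obtain ⟨c1, c2, c3, c4, c5⟩ := hn0 n hnn
    have hmin : min (1 / (32 * (64 * (r : ℝ)) ^ 2)) (1 / ((Real.log n0) ^ 2 + 1)) *
        (Real.log n) ^ ((r : ℝ) / ((r : ℝ) - 1)) * V ≤
        1 / (32 * (64 * r) ^ 2) * (Real.log n) ^ ((r : ℝ) / ((r : ℝ) - 1)) * V := by
      apply mul_le_mul_of_nonneg_right _ hV
      exact mul_le_mul_of_nonneg_right (min_le_left _ _) hP0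
    refine hmin.trans ?_
    by_cases hns : (n : ℝ) ^ (-(1 / 8 : ℝ)) ≤ s ^ 2
    · exact num_big r hr n s I V hs hs2 hI hV hns hn1 c1 c2 c3 c4 c5 H
    · have hns' : s ^ 2 ≤ (n : ℝ) ^ (-(1 / 8 : ℝ)) := (not_le.mp hns).le
      have hB : (0 : ℝ) < (n : ℝ) ^ (1 / 8 : ℝ) := by positivity
      have hneg : (n : ℝ) ^ (-(1 / 8 : ℝ)) = 1 / (n : ℝ) ^ (1 / 8 : ℝ) := by
        rw [Real.rpow_neg hn1.le, one_div ((n : ℝ) ^ (1 / 8 : ℝ))]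
      rw [hneg] at hns'
      have h1 : V ≤ I * (1 / (n : ℝ) ^ (1 / 8 : ℝ)) :=
        hbase.trans (mul_le_mul_of_nonneg_left hns' hI)
      have h2 : V * (n : ℝ) ^ (1 / 8 : ℝ) ≤ I := by
        have h7 := mul_le_mul_of_nonneg_right h1 hB.le
        have h8 : I * (1 / (n : ℝ) ^ (1 / 8 : ℝ)) * (n : ℝ) ^ (1 / 8 : ℝ) = I := by
          rw [mul_assoc, div_mul_cancel₀ _ hB.ne', mul_one]
        exact h7.trans_eq h8
      have h3 : (Real.log n) ^ ((r : ℝ) / ((r : ℝ) - 1)) ≤ (n : ℝ) ^ (1 / 8 : ℝ) := by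
        have e1 := Real.rpow_le_rpow_of_exponent_le c2 hα2
        rw [Real.rpow_two] at e1
        have e2 : (Real.log n) ^ 2 ≤ (Real.log n) ^ 4 := pow_le_pow_right₀ c2 (by norm_num)
        have e3 : (0 : ℝ) ≤ (Real.log n) ^ 4 := by positivity
        nlinarith
      have h4 : 1 / (32 * (64 * (r : ℝ)) ^ 2) ≤ 1 := by
        rw [div_le_one (by positivity)]
        nlinarith
      have h5 : 1 / (32 * (64 * (r : ℝ)) ^ 2) * (Real.log n) ^ ((r : ℝ) / ((r : ℝ) - 1)) ≤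
          1 * (n : ℝ) ^ (1 / 8 : ℝ) := mul_le_mul h4 h3 hP0 (by norm_num)
      have h6 := mul_le_mul_of_nonneg_right h5 hV
      linarith
  · have hnn' : (n : ℝ) ≤ n0 := by exact_mod_cast (not_le.mp hnn).le
    have h1 : Real.log n ≤ Real.log n0 := Real.log_le_log hn1 hnn'
    have h2 : (Real.log n) ^ ((r : ℝ) / ((r : ℝ) - 1)) ≤ (Real.log n0) ^ 2 + 1 := by
      have := hpowle _ hℓ0.le
      nlinarith
    have h30 : (0 : ℝ) < (Real.log n0) ^ 2 + 1 := by positivity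
    have h3 : min (1 / (32 * (64 * (r : ℝ)) ^ 2)) (1 / ((Real.log n0) ^ 2 + 1)) *
        (Real.log n) ^ ((r : ℝ) / ((r : ℝ) - 1)) ≤
        1 / ((Real.log n0) ^ 2 + 1) * ((Real.log n0) ^ 2 + 1) :=
      mul_le_mul (min_le_right _ _) h2 hP0 (by positivity)
    rw [div_mul_cancel₀ _ h30.ne'] at h3
    have h4 := mul_le_mul_of_nonneg_right h3 hV
    have h5 : s ^ 2 ≤ 1 := by nlinarith
    have h6 := mul_le_mul_of_nonneg_left h5 hI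
    linarith

end Vale.Agent.P063
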