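import Vale.Agent.P063.Cube

namespace Vale.Agent.P063

open Finset

variable {α : Type*} [DecidableEq α]

/-- Margulis-Russo formula -/
theorem hasDerivAt_Ex (A : Finset α) (g : Finset α → ℝ) (p : ℝ) :
    HasDerivAt (fun q : ℝ => Ex q A g)
      (∑ i ∈ A, Ex p (A.erase i) (fun x => g (insert i x) - g x)) p := by
  induction A using Finset.induction_on generalizing g with
  | empty =>
    simp only [Ex_empty, Finset.sum_empty]
    exact hasDerivAt_const p (g ∅)
  | insert i A hi ih =>
    have e1 : (fun q : ℝ => Ex q (insert i A) g) =
        fun q : ℝ => (1 - q) * Ex q A g + q * Ex q A (fun x => g (insert i x)) := by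
      funext q
      exact Ex_insert q hi g
    rw [e1, Finset.sum_insert hi, Finset.erase_insert hi]
    have h1 : HasDerivAt (fun q : ℝ => 1 - q) (-1) p := by
      have := (hasDerivAt_const p (1 : ℝ)).sub (hasDerivAt_id p)
      rw [zero_sub] at this
      exact this
    have h2 := (h1.mul (ih g)).add ((hasDerivAt_id p).mul (ih (fun x => g (insert i x))))
    refine HasDerivAt.congr_deriv h2 ?_
    have e2 : ∑ j ∈ A, Ex p ((insert i A).erase j) (fun x => g (insert j x) - g x) =
        (1 - p) * ∑ j ∈ A, Ex p (A.erase j) (fun x => g (insert j x) - g x) +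
        p * ∑ j ∈ A, Ex p (A.erase j) (fun x => g (insert i (insert j x)) - g (insert i x)) := by
      rw [Finset.mul_sum, Finset.mul_sum, ← Finset.sum_add_distrib]
      refine Finset.sum_congr rfl fun j hj => ?_
      have hji : i ≠ j := by
        rintro rfl
        exact hi hj
      have h3 : i ∉ A.erase j := fun h => hi (Finset.mem_of_mem_erase h)
      rw [Finset.erase_insert_of_ne hji, Ex_insert p h3]
      congr 3
      funext x
      rw [Finset.insert_comm]
    rw [e2, Ex_sub]
    simp only [id_eq]
    ring

end Vale.Agent.P063
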