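import Mathlib

namespace Vale.Agent.P063

lemma width_first (m : ℝ → ℝ) (hm : Continuous m) (hmono : MonotoneOn m (Set.Icc 0 1))
    (h0 : m 0 = 0) (h1 : m 1 = 1) (ε : ℝ) (hε : 0 < ε) (hε2 : ε < 1) :
    0 < sInf {p : ℝ | 0 ≤ p ∧ p ≤ 1 ∧ ε ≤ m p} ∧ sInf {p : ℝ | 0 ≤ p ∧ p ≤ 1 ∧ ε ≤ m p} < 1 ∧
      m (sInf {p : ℝ | 0 ≤ p ∧ p ≤ 1 ∧ ε ≤ m p}) = ε := by
  set A : Set ℝ := {p : ℝ | 0 ≤ p ∧ p ≤ 1 ∧ ε ≤ m p} with hA
  have hAn : A.Nonempty := ⟨1, zero_le_one, le_rfl, by rw [h1]; linarith⟩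
  have hAb : BddBelow A := ⟨0, fun p hp => hp.1⟩
  have hAc : IsClosed A := by
    have h2 : A = Set.Ici 0 ∩ (Set.Iic 1 ∩ {p : ℝ | ε ≤ m p}) := rfl
    rw [h2]
    exact isClosed_Ici.inter (isClosed_Iic.inter (isClosed_le continuous_const hm))
  have hmem : sInf A ∈ A := hAc.csInf_mem hAn hAb
  have hval : m (sInf A) = ε := by
    refine le_antisymm ?_ hmem.2.2
    have h3 : ε ∈ Set.Icc (m 0) (m 1) := by rw [h0, h1]; exact ⟨hε.le, hε2.le⟩
    obtain ⟨q, hq, hq2⟩ := intermediate_value_Icc zero_le_one hm.continuousOn h3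
    have h4 : sInf A ≤ q := csInf_le hAb ⟨hq.1, hq.2, hq2.ge⟩
    exact (hmono ⟨hmem.1, hmem.2.1⟩ hq h4).trans hq2.le
  refine ⟨lt_of_le_of_ne hmem.1 ?_, lt_of_le_of_ne hmem.2.1 ?_, hval⟩
  · intro h
    rw [← h, h0] at hval
    exact hε.ne hval
  · intro h
    rw [h, h1] at hval
    exact hε2.ne hval.symm

/-- from a differential inequality to an upper bound of the threshold width -/
theorem width_bound (m : ℝ → ℝ) (hm : Differentiable ℝ m) (hmono : MonotoneOn m (Set.Icc 0 1))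
    (h0 : m 0 = 0) (h1 : m 1 = 1) (ε K : ℝ) (hε : 0 < ε) (hε2 : ε < 1 / 2) (hK : 0 < K)
    (hd : ∀ p : ℝ, 0 < p → p < 1 → K * (m p * (1 - m p)) ≤ deriv m p) :
    sInf {p : ℝ | 0 ≤ p ∧ p ≤ 1 ∧ 1 - ε ≤ m p} - sInf {p : ℝ | 0 ≤ p ∧ p ≤ 1 ∧ ε ≤ m p} ≤
      2 * Real.log (1 / ε) / K := by
  obtain ⟨ha0, ha1, hma⟩ := width_first m hm.continuous hmono h0 h1 ε hε (by linarith)
  obtain ⟨hb0, hb1, hmb⟩ :=
    width_first m hm.continuous hmono h0 h1 (1 - ε) (by linarith) (by linarith)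
  set a := sInf {p : ℝ | 0 ≤ p ∧ p ≤ 1 ∧ ε ≤ m p} with ha
  set b := sInf {p : ℝ | 0 ≤ p ∧ p ≤ 1 ∧ 1 - ε ≤ m p} with hb
  have hab : a ≤ b := by
    by_contra h
    push Not at h
    have := hmono ⟨hb0.le, hb1.le⟩ ⟨ha0.le, ha1.le⟩ h.le
    rw [hma, hmb] at this
    linarith
  have hrange : ∀ p ∈ Set.Icc a b, 0 < m p ∧ 0 < 1 - m p := by
    intro p hp
    have h2 := hmono ⟨ha0.le, ha1.le⟩ ⟨ha0.le.trans hp.1, hp.2.trans hb1.le⟩ hp.1
    have h3 := hmono ⟨ha0.le.trans hp.1, hp.2.trans hb1.le⟩ ⟨hb0.le, hb1.le⟩ hp.2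
    rw [hma] at h2
    rw [hmb] at h3
    constructor <;> linarith
  have hder : ∀ p ∈ Set.Icc a b, HasDerivAt
      (fun q => Real.log (m q) - Real.log (1 - m q) - K * q)
      (deriv m p / m p - (0 - deriv m p) / (1 - m p) - K * 1) p := by
    intro p hp
    obtain ⟨h2, h3⟩ := hrange p hp
    have h4 := (hm p).hasDerivAt
    exact ((h4.log h2.ne').sub (((hasDerivAt_const p (1 : ℝ)).sub h4).log h3.ne')).sub
      ((hasDerivAt_id p).const_mul K)
  have hmon : MonotoneOn (fun q => Real.log (m q) - Real.log (1 - m q) - K * q)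
      (Set.Icc a b) := by
    apply monotoneOn_of_deriv_nonneg (convex_Icc a b)
    · exact fun p hp => (hder p hp).continuousAt.continuousWithinAt
    · exact fun p hp =>
        (hder p (interior_subset hp)).differentiableAt.differentiableWithinAt
    · intro p hp
      have hp' := interior_subset hp
      rw [(hder p hp').deriv]
      obtain ⟨h2, h3⟩ := hrange p hp'
      have h4 := hd p (lt_of_lt_of_le ha0 hp'.1) (lt_of_le_of_lt hp'.2 hb1)
      have h5 : deriv m p / m p - (0 - deriv m p) / (1 - m p) - K * 1 =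
          (deriv m p - K * (m p * (1 - m p))) / (m p * (1 - m p)) := by
        field_simp
        ring
      rw [h5]
      exact div_nonneg (sub_nonneg.2 h4) (mul_pos h2 h3).le
  have h6 := hmon ⟨le_rfl, hab⟩ ⟨hab, le_rfl⟩ hab
  simp only at h6
  rw [hma, hmb] at h6
  have h7 : Real.log (1 - ε) ≤ 0 := Real.log_nonpos (by linarith) (by linarith)
  have h8 : (1 : ℝ) - (1 - ε) = ε := by ring
  rw [h8] at h6
  rw [le_div_iff₀ hK, one_div, Real.log_inv]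
  linarith

end Vale.Agent.P063
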