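import Vale.Agent.P063.Core
import Vale.Agent.P063.Num
import Vale.Agent.P063.Width
import Vale.Agent.P063.Russo

namespace Vale.Agent.P063

open Finset

set_option linter.unusedSectionVars false

variable {r n : ℕ}

lemma mu_eq (p : ℝ) (P : Set (Hyp r n)) : mu p P = Ex p Finset.univ (ind P) := by
  unfold mu Ex
  rw [Finset.powerset_univ]
  refine Finset.sum_congr rfl fun G _ => ?_
  unfold ind
  by_cases h : G ∈ P
  · rw [if_pos h, if_pos h, mul_one, Finset.card_univ]
  · rw [if_neg h, if_neg h, mul_zero]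

lemma Ex_zero {α : Type*} [DecidableEq α] (A : Finset α) (g : Finset α → ℝ) :
    Ex 0 A g = g ∅ := by
  induction A using Finset.induction_on generalizing g with
  | empty => exact Ex_empty _ _
  | insert i A hi ih => rw [Ex_insert 0 hi, ih]; ring

lemma Ex_one {α : Type*} [DecidableEq α] (A : Finset α) (g : Finset α → ℝ) :
    Ex 1 A g = g A := by
  induction A using Finset.induction_on generalizing g with
  | empty => exact Ex_empty _ _
  | insert i A hi ih => rw [Ex_insert 1 hi, ih, ih]; ring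

lemma totInf_eq (p : ℝ) (P : Set (Hyp r n)) :
    totInf p P = ∑ e : Edge r n, piv p Finset.univ (ind P) e := by
  unfold totInf
  refine Finset.sum_congr rfl fun e _ => ?_
  rw [mu_eq]
  unfold piv
  have hU : insert e (Finset.univ.erase e) = (Finset.univ : Hyp r n) :=
    Finset.insert_erase (Finset.mem_univ e)
  have hn : e ∉ (Finset.univ : Hyp r n).erase e := Finset.notMem_erase e _
  conv_lhs => rw [← hU]
  rw [Ex_insert p hn]
  have key : ∀ x : Hyp r n, e ∉ x →
      ind {G : Hyp r n | ¬ (insert e G ∈ P ↔ G.erase e ∈ P)} x = (ind P (insert e x) - ind P x) ^ 2 := by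
    intro x hx
    unfold ind
    rw [Set.mem_ofPred_eq, Finset.erase_eq_of_notMem hx]
    by_cases h1 : insert e x ∈ P <;> by_cases h2 : x ∈ P <;> simp [h1, h2]
  have key2 : ∀ x : Hyp r n, e ∉ x →
      ind {G : Hyp r n | ¬ (insert e G ∈ P ↔ G.erase e ∈ P)} (insert e x) =
        (ind P (insert e x) - ind P x) ^ 2 := by
    intro x hx
    unfold ind
    rw [Set.mem_ofPred_eq, Finset.erase_insert hx, Finset.insert_idem]
    by_cases h1 : insert e x ∈ P <;> by_cases h2 : x ∈ P <;> simp [h1, h2]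
  rw [← Ex_smul, ← Ex_smul, ← Ex_add]
  refine Ex_congr fun x hx => ?_
  have hex : e ∉ x := fun h => hn (hx h)
  rw [key x hex, key2 x hex]
  ring

/-- lower bound of the total influence of a property -/
theorem influence_bound (r : ℕ) (hr : 2 ≤ r) : ∃ c : ℝ, 0 < c ∧ ∀ n : ℕ, 2 ≤ n →
    ∀ P : Set (Hyp r n), IsProperty P → ∀ p : ℝ, 0 < p → p < 1 →
      c * (Real.log n) ^ ((r : ℝ) / ((r : ℝ) - 1)) * (mu p P * (1 - mu p P)) ≤ totInf p P := by
  obtain ⟨c, hc, h⟩ := num r hr
  refine ⟨c, hc, fun n hn P hP p h0 h1 => ?_⟩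
  have hs := sg_pos h0 h1
  have hsh := sg_le_half h0 h1
  rw [totInf_eq]
  refine h n hn (sg p) _ _ hs hsh (Finset.sum_nonneg fun i _ => piv_nonneg h0.le h1.le _ _ _)
    ?_ ?_
  · rw [mu_eq]
    have e1 : 0 ≤ Ex p Finset.univ (ind P) := Ex_nonneg h0.le h1.le fun x _ => by
      rcases ind_val P x with h | h <;> rw [h] <;> norm_num
    have e2 : Ex p Finset.univ (ind P) ≤ 1 := by
      rw [← Ex_const p (Finset.univ : Hyp r n) 1]
      refine Ex_mono h0.le h1.le fun x _ => ?_
      rcases ind_val P x with h | h <;> rw [h] <;> norm_num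
    exact mul_nonneg e1 (by linarith)
  · intro k M w L hk hL hw1 hw2 hrM
    rw [mu_eq]
    exact core hP (by omega) h0 h1 k M w L hk hL hw1 hw2 hrM

/-- upper bound of the threshold width -/
theorem width_upper (r : ℕ) (hr : 2 ≤ r) : ∃ C : ℝ, 0 < C ∧ ∀ n : ℕ, 2 ≤ n →
    ∀ P : Set (Hyp r n), IsProperty P → Increasing P → P.Nonempty → P ≠ Set.univ →
      ∀ ε : ℝ, 0 < ε → ε < 1 / 2 →
      width ε P ≤ C * Real.log (1 / ε) / (Real.log n) ^ ((r : ℝ) / ((r : ℝ) - 1)) := by
  obtain ⟨c, hc, h⟩ := influence_bound r hr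
  refine ⟨2 / c, by positivity, fun n hn P hP hinc hne hnu ε hε hε2 => ?_⟩
  set m : ℝ → ℝ := fun p => mu p P with hm
  have hmE : m = fun p : ℝ => Ex p Finset.univ (ind P) := by
    funext p
    exact mu_eq p P
  have hder : ∀ p : ℝ, HasDerivAt m (∑ i ∈ (Finset.univ : Hyp r n),
      Ex p ((Finset.univ : Hyp r n).erase i) (fun x => ind P (insert i x) - ind P x)) p := by
    intro p
    rw [hmE]
    exact hasDerivAt_Ex _ _ _
  have hdiff : Differentiable ℝ m := fun p => (hder p).differentiableAt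
  have hdv : ∀ p : ℝ, deriv m p = totInf p P := by
    intro p
    rw [(hder p).deriv, totInf_eq]
    refine Finset.sum_congr rfl fun i _ => ?_
    unfold piv
    refine Ex_congr fun x _ => ?_
    unfold ind
    by_cases h1 : insert i x ∈ P
    · by_cases h2 : x ∈ P
      · rw [if_pos h1, if_pos h2]; ring
      · rw [if_pos h1, if_neg h2]; ring
    · have h2 : x ∉ P := fun h2 => h1 (hinc x (insert i x) (Finset.subset_insert i x) h2)
      rw [if_neg h1, if_neg h2]; ring
  have htot : ∀ p : ℝ, 0 ≤ p → p ≤ 1 → 0 ≤ totInf p P := by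
    intro p h0 h1
    rw [totInf_eq]
    exact Finset.sum_nonneg fun i _ => piv_nonneg h0 h1 _ _ _
  have hmono : MonotoneOn m (Set.Icc 0 1) := by
    apply monotoneOn_of_deriv_nonneg (convex_Icc 0 1) hdiff.continuous.continuousOn
      hdiff.differentiableOn
    intro p hp
    have hp' := interior_subset hp
    rw [hdv]
    exact htot p hp'.1 hp'.2
  have hm0 : m 0 = 0 := by
    rw [hmE]
    show Ex 0 Finset.univ (ind P) = 0
    rw [Ex_zero]
    unfold ind
    rw [if_neg]
    intro hempty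
    apply hnu
    rw [Set.eq_univ_iff_forall]
    exact fun G => hinc ∅ G (Finset.empty_subset G) hempty
  have hm1 : m 1 = 1 := by
    rw [hmE]
    show Ex 1 Finset.univ (ind P) = 1
    rw [Ex_one]
    unfold ind
    rw [if_pos]
    obtain ⟨G, hG⟩ := hne
    exact hinc G _ (Finset.subset_univ G) hG
  have hlog : 0 < Real.log n := Real.log_pos (by exact_mod_cast hn)
  have hpow : 0 < (Real.log n) ^ ((r : ℝ) / ((r : ℝ) - 1)) := Real.rpow_pos_of_pos hlog _
  have hK : 0 < c * (Real.log n) ^ ((r : ℝ) / ((r : ℝ) - 1)) := mul_pos hc hpow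
  have hfin := width_bound m hdiff hmono hm0 hm1 ε _ hε hε2 hK (fun p h0 h1 => by
    rw [hdv]
    exact h n hn P hP p h0 h1)
  have e1 : width ε P = sInf {p : ℝ | 0 ≤ p ∧ p ≤ 1 ∧ 1 - ε ≤ m p} -
      sInf {p : ℝ | 0 ≤ p ∧ p ≤ 1 ∧ ε ≤ m p} := rfl
  rw [e1]
  refine hfin.trans (le_of_eq ?_)
  field_simp

end Vale.Agent.P063
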