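import Vale.Agent.P063.Cube

namespace Vale.Agent.P063

open Finset

set_option linter.unusedSectionVars false

variable {α : Type*} [DecidableEq α]

/-- expectation of an expansion against a function -/
lemma Ex_ev_mul (p : ℝ) (A : Finset α) (k : ℕ) (h : Finset α → ℝ) :
    Ex p A (fun x => ev p A k (co p A h) x * h x) = ssq A k (co p A h) := by
  unfold ev ssq
  have e1 : (fun x => (∑ S ∈ A.powerset.filter (fun S => S.card ≤ k), co p A h S * chi p S x) * h x)
      = fun x => ∑ S ∈ A.powerset.filter (fun S => S.card ≤ k), (co p A h S * (h x * chi p S x)) := by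
    funext x
    rw [Finset.sum_mul]
    refine Finset.sum_congr rfl fun S _ => by ring
  rw [e1, Ex_sum]
  refine Finset.sum_congr rfl fun S _ => ?_
  rw [Ex_smul, sq]
  rfl

/-- level inequality for functions with values in `{-1, 0, 1}` -/
lemma level_one {p : ℝ} (h0 : 0 < p) (h1 : p < 1) (A : Finset α) (k : ℕ) (h : Finset α → ℝ)
    (hh : ∀ x ⊆ A, h x = 0 ∨ h x = 1 ∨ h x = -1) :
    ssq A k (co p A h) ≤
      (4 / sg p) ^ k * (Ex p A (fun x => h x ^ 2) * Real.sqrt (Ex p A (fun x => h x ^ 2))) := by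
  have hs := sg_pos h0 h1
  set W := ssq A k (co p A h) with hW
  set π := Ex p A (fun x => h x ^ 2) with hπ
  have hW0 : 0 ≤ W := ssq_nonneg _ _ _
  have hπ0 : 0 ≤ π := Ex_nonneg h0.le h1.le fun x _ => sq_nonneg _
  set b := 4 / sg p with hb
  have hb0 : 0 < b := by positivity
  set q : Finset α → ℝ := ev p A k (co p A h) with hq
  have hq4 : Ex p A (fun x => q x ^ 4) ≤ (b ^ k * W) ^ 2 := bonami h0 h1 A k _
  have hq4n : 0 ≤ Ex p A (fun x => q x ^ 4) := Ex_nonneg h0.le h1.le fun x _ => by positivity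
  -- second moment of `q` on the support of `h`
  set Z := Ex p A (fun x => q x ^ 2 * h x ^ 2) with hZ
  have hZ0 : 0 ≤ Z := Ex_nonneg h0.le h1.le fun x _ => by positivity
  have c1 : Z ^ 2 ≤ (b ^ k * W) ^ 2 * π := by
    have hcs := Ex_cs h0.le h1.le A (fun x => q x ^ 2) (fun x => h x ^ 2)
    have e1 : Ex p A (fun x => (q x ^ 2) ^ 2) = Ex p A (fun x => q x ^ 4) :=
      Ex_congr fun x _ => by ring
    have e2 : Ex p A (fun x => (h x ^ 2) ^ 2) = π := by
      refine Ex_congr fun x hx => ?_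
      rcases hh x hx with h | h | h <;> rw [h] <;> norm_num
    rw [e1, e2] at hcs
    exact hcs.trans (mul_le_mul_of_nonneg_right hq4 hπ0)
  have c2 : W ^ 2 ≤ Z * π := by
    have hcs := Ex_cs h0.le h1.le A (fun x => q x * h x) (fun x => h x ^ 2)
    have e1 : Ex p A (fun x => q x * h x * h x ^ 2) = W := by
      rw [hW, ← Ex_ev_mul]
      refine Ex_congr fun x hx => ?_
      rcases hh x hx with h | h | h <;> rw [h] <;> norm_num
      all_goals rfl
    have e2 : Ex p A (fun x => (h x ^ 2) ^ 2) = π := by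
      refine Ex_congr fun x hx => ?_
      rcases hh x hx with h | h | h <;> rw [h] <;> norm_num
    have e3 : Ex p A (fun x => (q x * h x) ^ 2) = Z :=
      Ex_congr fun x _ => by ring
    rw [e1, e2, e3] at hcs
    exact hcs
  have c3 : Z ≤ b ^ k * W * Real.sqrt π := by
    have h3 : Z ^ 2 ≤ (b ^ k * W * Real.sqrt π) ^ 2 := by
      rw [mul_pow, Real.sq_sqrt hπ0]
      exact c1
    exact le_of_sq_le_sq h3 (by positivity)
  have c4 : W ^ 2 ≤ b ^ k * W * Real.sqrt π * π := c2.trans (mul_le_mul_of_nonneg_right c3 hπ0)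
  rcases hW0.eq_or_lt with h | h
  · rw [← h]; positivity
  · have c5 : W * W ≤ W * (b ^ k * (π * Real.sqrt π)) := by
      calc W * W = W ^ 2 := by ring
        _ ≤ _ := c4
        _ = _ := by ring
    exact le_of_mul_le_mul_left c5 h

/-- probability that the coordinate `i` is pivotal (for a `{0, 1}`-valued `g`) -/
noncomputable def piv (p : ℝ) (A : Finset α) (g : Finset α → ℝ) (i : α) : ℝ :=
  Ex p (A.erase i) (fun x => (g (insert i x) - g x) ^ 2)

lemma piv_nonneg {p : ℝ} (h0 : 0 ≤ p) (h1 : p ≤ 1) (A : Finset α) (g : Finset α → ℝ) (i : α) :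
    0 ≤ piv p A g i := Ex_nonneg h0 h1 fun _ _ => sq_nonneg _

/-- summing over the sets that contain `i` -/
lemma sum_mem_eq {β : Type*} [AddCommMonoid β] {i : α} {A : Finset α} (hi : i ∈ A)
    (F : Finset α → β) :
    ∑ S ∈ A.powerset.filter (fun S => i ∈ S), F S = ∑ T ∈ (A.erase i).powerset, F (insert i T) := by
  have hA : insert i (A.erase i) = A := Finset.insert_erase hi
  have hn : i ∉ A.erase i := Finset.notMem_erase i A
  rw [Finset.sum_filter]
  conv_lhs => rw [← hA]
  rw [Finset.sum_powerset_insert hn]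
  have e1 : ∑ t ∈ (A.erase i).powerset, (if i ∈ t then F t else 0) = 0 := by
    refine Finset.sum_eq_zero fun t ht => ?_
    rw [if_neg]
    exact fun h => hn (Finset.mem_powerset.1 ht h)
  rw [e1, zero_add]
  refine Finset.sum_congr rfl fun T _ => ?_
  rw [if_pos (Finset.mem_insert_self i T)]

lemma co_insert_erase {p : ℝ} (h0 : 0 < p) (h1 : p < 1) {i : α} {A T : Finset α} (hi : i ∈ A)
    (hT : T ⊆ A.erase i) (g : Finset α → ℝ) :
    co p A g (insert i T) = sg p * co p (A.erase i) (fun x => g (insert i x) - g x) T := by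
  have hA : insert i (A.erase i) = A := Finset.insert_erase hi
  have hn : i ∉ A.erase i := Finset.notMem_erase i A
  have h := co_insert_right h0 h1 hn hT g
  rw [hA] at h
  rw [h]
  unfold co
  rw [← Ex_smul]
  refine Ex_congr fun x _ => by ring

lemma sum_co_mem {p : ℝ} (h0 : 0 < p) (h1 : p < 1) {i : α} {A : Finset α} (hi : i ∈ A)
    (g : Finset α → ℝ) :
    ∑ S ∈ A.powerset.filter (fun S => i ∈ S), co p A g S ^ 2 = sg p ^ 2 * piv p A g i := by
  rw [sum_mem_eq hi]
  unfold piv
  rw [← parseval h0 h1, Finset.mul_sum]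
  refine Finset.sum_congr rfl fun T hT => ?_
  rw [co_insert_erase h0 h1 hi (Finset.mem_powerset.1 hT), mul_pow]

/-- the total influence in terms of the coefficients -/
lemma sum_card_co {p : ℝ} (h0 : 0 < p) (h1 : p < 1) (A : Finset α) (g : Finset α → ℝ) :
    ∑ S ∈ A.powerset, (S.card : ℝ) * co p A g S ^ 2 = sg p ^ 2 * ∑ i ∈ A, piv p A g i := by
  rw [Finset.mul_sum]
  have e1 : ∀ i ∈ A, sg p ^ 2 * piv p A g i =
      ∑ S ∈ A.powerset, if i ∈ S then co p A g S ^ 2 else 0 := by
    intro i hi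
    rw [← sum_co_mem h0 h1 hi, Finset.sum_filter]
  rw [Finset.sum_congr rfl e1, Finset.sum_comm]
  refine Finset.sum_congr rfl fun S hS => ?_
  have hSA := Finset.mem_powerset.1 hS
  rw [← Finset.sum_filter, Finset.sum_const, nsmul_eq_mul]
  congr 3
  rw [Finset.filter_mem_eq_inter, Finset.inter_eq_right.2 hSA]

/-- level inequality -/
lemma level {p : ℝ} (h0 : 0 < p) (h1 : p < 1) (A : Finset α) (k : ℕ) (g : Finset α → ℝ)
    (hg : ∀ x ⊆ A, g x = 0 ∨ g x = 1) :
    ∑ S ∈ A.powerset.filter (fun S => 1 ≤ S.card ∧ S.card ≤ k), co p A g S ^ 2 ≤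
      ∑ i ∈ A, sg p ^ 2 * ((4 / sg p) ^ k * (piv p A g i * Real.sqrt (piv p A g i))) := by
  have hs := sg_pos h0 h1
  have hsh := sg_le_half h0 h1
  have hb1 : (1 : ℝ) ≤ 4 / sg p := by
    rw [le_div_iff₀ hs]; linarith
  -- first pass to a double sum
  have step1 : ∑ S ∈ A.powerset.filter (fun S => 1 ≤ S.card ∧ S.card ≤ k), co p A g S ^ 2 ≤
      ∑ i ∈ A, ∑ S ∈ A.powerset.filter (fun S => i ∈ S),
        if S.card ≤ k then co p A g S ^ 2 else 0 := by
    have e1 : ∑ i ∈ A, ∑ S ∈ A.powerset.filter (fun S => i ∈ S),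
        (if S.card ≤ k then co p A g S ^ 2 else 0) =
        ∑ S ∈ A.powerset, (S.card : ℝ) * (if S.card ≤ k then co p A g S ^ 2 else 0) := by
      simp_rw [Finset.sum_filter]
      rw [Finset.sum_comm]
      refine Finset.sum_congr rfl fun S hS => ?_
      have hSA := Finset.mem_powerset.1 hS
      rw [← Finset.sum_filter, Finset.sum_const, nsmul_eq_mul]
      congr 3
      rw [Finset.filter_mem_eq_inter, Finset.inter_eq_right.2 hSA]
    rw [e1, Finset.sum_filter]
    refine Finset.sum_le_sum fun S _ => ?_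
    by_cases h2 : S.card ≤ k
    · by_cases h3 : 1 ≤ S.card
      · rw [if_pos ⟨h3, h2⟩, if_pos h2]
        have h4 : (1 : ℝ) ≤ S.card := by exact_mod_cast h3
        have h5 : 0 ≤ co p A g S ^ 2 := sq_nonneg _
        nlinarith
      · rw [if_neg (fun h => h3 h.1)]
        positivity
    · rw [if_neg (fun h => h2 h.2), if_neg h2, mul_zero]
  refine step1.trans (Finset.sum_le_sum fun i hi => ?_)
  rw [sum_mem_eq hi]
  have hn : i ∉ A.erase i := Finset.notMem_erase i A
  set h : Finset α → ℝ := fun x => g (insert i x) - g x with hh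
  have hval : ∀ x ⊆ A.erase i, h x = 0 ∨ h x = 1 ∨ h x = -1 := by
    intro x hx
    have hx1 : x ⊆ A := hx.trans (Finset.erase_subset i A)
    have hx2 : insert i x ⊆ A := Finset.insert_subset hi hx1
    rw [hh]
    rcases hg x hx1 with h3 | h3 <;> rcases hg _ hx2 with h4 | h4 <;>
      simp only [h3, h4] <;> norm_num
  have hl := level_one h0 h1 (A.erase i) k h hval
  have e2 : ∑ T ∈ (A.erase i).powerset,
      (if (insert i T).card ≤ k then co p A g (insert i T) ^ 2 else 0) ≤
      sg p ^ 2 * ssq (A.erase i) k (co p (A.erase i) h) := by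
    unfold ssq
    rw [Finset.sum_filter, Finset.mul_sum]
    refine Finset.sum_le_sum fun T hT => ?_
    have hTA := Finset.mem_powerset.1 hT
    have hiT : i ∉ T := fun h => hn (hTA h)
    rw [Finset.card_insert_of_notMem hiT]
    by_cases h5 : T.card + 1 ≤ k
    · rw [if_pos h5, if_pos (by omega), co_insert_erase h0 h1 hi hTA, mul_pow]
    · rw [if_neg h5]
      split_ifs <;> positivity
  refine e2.trans (mul_le_mul_of_nonneg_left ?_ (by positivity))
  exact hl

end Vale.Agent.P063
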