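import Vale.Agent.P063.Level

namespace Vale.Agent.P063

open Finset

set_option linter.unusedSectionVars false

variable {α : Type*} [DecidableEq α]

lemma sum_powerset_union {β : Type*} [AddCommMonoid β] (A B : Finset α) (hd : Disjoint A B)
    (F : Finset α → β) :
    ∑ S ∈ (A ∪ B).powerset, F S = ∑ T ∈ A.powerset, ∑ U ∈ B.powerset, F (T ∪ U) := by
  induction A using Finset.induction_on generalizing F with
  | empty => simp
  | insert i A hi ih =>
    have hdA : Disjoint A B := Finset.disjoint_of_subset_left (Finset.subset_insert i A) hd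
    have hiB : i ∉ B := fun h =>
      (Finset.disjoint_left.1 hd) (Finset.mem_insert_self i A) h
    have hi2 : i ∉ A ∪ B := by
      rw [Finset.mem_union]; tauto
    rw [Finset.insert_union, Finset.sum_powerset_insert hi2, Finset.sum_powerset_insert hi,
      ih hdA, ih hdA]
    congr 1
    refine Finset.sum_congr rfl fun T _ => Finset.sum_congr rfl fun U _ => ?_
    rw [Finset.insert_union]

lemma xi_congr (p : ℝ) (i : α) {x y : Finset α} (h : i ∈ x ↔ i ∈ y) : xi p i x = xi p i y := by
  unfold xi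
  simp only [h]

lemma chi_union (p : ℝ) {A B T U y z : Finset α} (hd : Disjoint A B) (hT : T ⊆ A) (hU : U ⊆ B)
    (hy : y ⊆ A) (hz : z ⊆ B) : chi p (T ∪ U) (y ∪ z) = chi p T y * chi p U z := by
  unfold chi
  rw [Finset.prod_union (Finset.disjoint_of_subset_left hT (Finset.disjoint_of_subset_right hU hd))]
  congr 1
  · refine Finset.prod_congr rfl fun i hi => xi_congr p i ?_
    have : i ∉ z := fun h => Finset.disjoint_left.1 hd (hT hi) (hz h)
    rw [Finset.mem_union]; tauto
  · refine Finset.prod_congr rfl fun i hi => xi_congr p i ?_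
    have : i ∉ y := fun h => Finset.disjoint_left.1 hd (hy h) (hU hi)
    rw [Finset.mem_union]; tauto

lemma co_union (p : ℝ) {A B T U : Finset α} (hd : Disjoint A B) (hT : T ⊆ A) (hU : U ⊆ B)
    (f : Finset α → ℝ) :
    co p (A ∪ B) f (T ∪ U) = co p B (fun z => co p A (fun y => f (y ∪ z)) T) U := by
  unfold co
  rw [Ex_union p A B hd]
  refine Ex_congr fun z hz => ?_
  rw [mul_comm, ← Ex_smul]
  refine Ex_congr fun y hy => ?_
  rw [chi_union p hd hT hU hy hz]
  ring

/-- weight of the sets that meet `A` in between `1` and `k` points -/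
lemma slice_sum {p : ℝ} (h0 : 0 < p) (h1 : p < 1) {A B : Finset α} (hd : Disjoint A B) (k : ℕ)
    (f : Finset α → ℝ) :
    ∑ S ∈ (A ∪ B).powerset.filter (fun S => 1 ≤ (S ∩ A).card ∧ (S ∩ A).card ≤ k),
      co p (A ∪ B) f S ^ 2 =
    Ex p B (fun z => ∑ T ∈ A.powerset.filter (fun T => 1 ≤ T.card ∧ T.card ≤ k),
      co p A (fun y => f (y ∪ z)) T ^ 2) := by
  rw [Ex_sum, Finset.sum_filter, sum_powerset_union A B hd, Finset.sum_filter]
  refine Finset.sum_congr rfl fun T hT => ?_
  have hTA := Finset.mem_powerset.1 hT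
  have e1 : ∀ U ∈ B.powerset, (T ∪ U) ∩ A = T := by
    intro U hU
    have hUB := Finset.mem_powerset.1 hU
    ext i
    rw [Finset.mem_inter, Finset.mem_union]
    constructor
    · rintro ⟨h | h, h2⟩
      · exact h
      · exact absurd (hUB h) (Finset.disjoint_left.1 hd h2)
    · intro h
      exact ⟨Or.inl h, hTA h⟩
  by_cases hc : 1 ≤ T.card ∧ T.card ≤ k
  · rw [if_pos hc, ← parseval h0 h1]
    refine Finset.sum_congr rfl fun U hU => ?_
    rw [e1 U hU, if_pos hc, co_union p hd hTA (Finset.mem_powerset.1 hU)]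
  · rw [if_neg hc]
    refine Finset.sum_eq_zero fun U hU => ?_
    rw [e1 U hU, if_neg hc]

/-- averaging pivot probabilities over a slice -/
lemma slice_piv (p : ℝ) {A B : Finset α} (hd : Disjoint A B) {i : α} (hi : i ∈ A)
    (f : Finset α → ℝ) :
    Ex p B (fun z => piv p A (fun y => f (y ∪ z)) i) = piv p (A ∪ B) f i := by
  have hiB : i ∉ B := Finset.disjoint_left.1 hd hi
  have e1 : (A ∪ B).erase i = A.erase i ∪ B := by
    rw [Finset.erase_union_distrib, Finset.erase_eq_of_notMem hiB]
  unfold piv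
  rw [e1, Ex_union p (A.erase i) B
    (Finset.disjoint_of_subset_left (Finset.erase_subset i A) hd)]
  refine Ex_congr fun z _ => Ex_congr fun y _ => ?_
  show (f (insert i y ∪ z) - f (y ∪ z)) ^ 2 = _
  rw [Finset.insert_union]

/-- from equal pivot probabilities in a slice to the bound of the weight -/
lemma weight_bound {p : ℝ} (h0 : 0 < p) (h1 : p < 1) {A : Finset α} (k : ℕ) {t : ℝ}
    (ht : 0 < t) {L : ℝ} (hL : 0 < L) (g : Finset α → ℝ) (hg : ∀ x ⊆ A, g x = 0 ∨ g x = 1)
    (hp : ∀ i ∈ A, t * piv p A g i ≤ ∑ j ∈ A, piv p A g j) :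
    ∑ S ∈ A.powerset.filter (fun S => 1 ≤ S.card ∧ S.card ≤ k), co p A g S ^ 2 ≤
      (1 / L + sg p ^ 2 * (4 / sg p) ^ k * Real.sqrt (L / t)) * ∑ j ∈ A, piv p A g j := by
  have hs := sg_pos h0 h1
  set I := ∑ j ∈ A, piv p A g j with hI
  have hI0 : 0 ≤ I := Finset.sum_nonneg fun i _ => piv_nonneg h0.le h1.le A g i
  have hc0 : 0 ≤ sg p ^ 2 * (4 / sg p) ^ k * Real.sqrt (L / t) := by positivity
  by_cases hIL : I ≤ L
  · have h2 := level h0 h1 A k g hg
    have h3 : ∀ i ∈ A, sg p ^ 2 * ((4 / sg p) ^ k * (piv p A g i * Real.sqrt (piv p A g i))) ≤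
        (sg p ^ 2 * (4 / sg p) ^ k * Real.sqrt (L / t)) * piv p A g i := by
      intro i hi
      have h4 : piv p A g i ≤ L / t := by
        rw [le_div_iff₀ ht, mul_comm]
        exact (hp i hi).trans hIL
      have h5 : Real.sqrt (piv p A g i) ≤ Real.sqrt (L / t) := Real.sqrt_le_sqrt h4
      have h6 : 0 ≤ piv p A g i := piv_nonneg h0.le h1.le A g i
      calc sg p ^ 2 * ((4 / sg p) ^ k * (piv p A g i * Real.sqrt (piv p A g i)))
          = (sg p ^ 2 * (4 / sg p) ^ k * piv p A g i) * Real.sqrt (piv p A g i) := by ring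
        _ ≤ (sg p ^ 2 * (4 / sg p) ^ k * piv p A g i) * Real.sqrt (L / t) :=
            mul_le_mul_of_nonneg_left h5 (by positivity)
        _ = _ := by ring
    refine (h2.trans (Finset.sum_le_sum h3)).trans ?_
    rw [← Finset.mul_sum, add_mul]
    have h7 : 0 ≤ 1 / L * I := by positivity
    linarith
  · push Not at hIL
    have h2 : ∑ S ∈ A.powerset.filter (fun S => 1 ≤ S.card ∧ S.card ≤ k), co p A g S ^ 2 ≤ 1 := by
      calc _ ≤ ∑ S ∈ A.powerset, co p A g S ^ 2 :=
            Finset.sum_le_sum_of_subset_of_nonneg (Finset.filter_subset _ _)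
              fun _ _ _ => sq_nonneg _
        _ = Ex p A (fun x => g x ^ 2) := parseval h0 h1 A g
        _ ≤ Ex p A (fun _ => 1) := by
            refine Ex_mono h0.le h1.le fun x hx => ?_
            rcases hg x hx with h | h <;> rw [h] <;> norm_num
        _ = 1 := Ex_const p A 1
    refine h2.trans ?_
    rw [add_mul]
    have h8 : 1 ≤ 1 / L * I := by
      rw [one_div, inv_mul_eq_div, le_div_iff₀ hL]
      linarith
    have h9 : 0 ≤ sg p ^ 2 * (4 / sg p) ^ k * Real.sqrt (L / t) * I := by positivity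
    linarith

end Vale.Agent.P063
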