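import Vale.Agent.P063.Slice
import Vale.Agent.P063.Defs

namespace Vale.Agent.P063

open Finset

set_option linter.unusedSectionVars false

section generic

variable {α : Type*} [DecidableEq α]

lemma Ex_image (p : ℝ) {σ : α → α} (hσ : Function.Injective σ) (A : Finset α)
    (g : Finset α → ℝ) : Ex p (A.image σ) g = Ex p A (fun x => g (x.image σ)) := by
  induction A using Finset.induction_on generalizing g with
  | empty => simp [Ex_empty]
  | insert i A hi ih =>
    have hi2 : σ i ∉ A.image σ := by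
      rw [Finset.mem_image]
      rintro ⟨j, hj, hji⟩
      exact hi (hσ hji ▸ hj)
    rw [Finset.image_insert, Ex_insert p hi2, Ex_insert p hi, ih, ih]
    congr 2
    refine Ex_congr fun x _ => ?_
    show g (insert (σ i) (x.image σ)) = g ((insert i x).image σ)
    rw [Finset.image_insert]

lemma piv_symm (p : ℝ) {σ : α → α} (hσ : Function.Injective σ) {A : Finset α}
    (hA : A.image σ = A) (g : Finset α → ℝ) (hg : ∀ x ⊆ A, g (x.image σ) = g x) {i : α}
    (hi : i ∈ A) : piv p A g (σ i) = piv p A g i := by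
  have e1 : A.erase (σ i) = (A.erase i).image σ := by
    conv_lhs => rw [← hA]
    ext j
    simp only [Finset.mem_erase, Finset.mem_image]
    constructor
    · rintro ⟨h1, k, hk, rfl⟩
      exact ⟨k, ⟨fun h => h1 (by rw [h]), hk⟩, rfl⟩
    · rintro ⟨k, ⟨h1, hk⟩, rfl⟩
      exact ⟨fun h => h1 (hσ h), k, hk, rfl⟩
  unfold piv
  rw [e1, Ex_image p hσ]
  refine Ex_congr fun x hx => ?_
  have hxA : x ⊆ A := hx.trans (Finset.erase_subset i A)
  rw [← Finset.image_insert, hg _ (Finset.insert_subset hi hxA), hg _ hxA]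

end generic

variable {r n : ℕ}

lemma mem_permEdge (τ : Equiv.Perm (Fin n)) (e : Edge r n) (x : Fin n) :
    x ∈ (permEdge τ e).1 ↔ τ.symm x ∈ e.1 := by
  unfold permEdge
  exact Finset.mem_map_equiv

lemma permEdge_injective (τ : Equiv.Perm (Fin n)) :
    Function.Injective (permEdge (r := r) τ) := by
  intro e f h
  apply Subtype.ext
  ext x
  have h2 : τ x ∈ (permEdge τ e).1 ↔ τ x ∈ (permEdge τ f).1 := by rw [h]
  rw [mem_permEdge, mem_permEdge, Equiv.symm_apply_apply] at h2
  exact h2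

lemma permEdge_symm_permEdge (τ : Equiv.Perm (Fin n)) (e : Edge r n) :
    permEdge τ.symm (permEdge τ e) = e := by
  apply Subtype.ext
  ext x
  rw [mem_permEdge, mem_permEdge, Equiv.symm_symm, Equiv.symm_apply_apply]

lemma relabel_symm_relabel (τ : Equiv.Perm (Fin n)) (G : Hyp r n) :
    relabel τ.symm (relabel τ G) = G := by
  unfold relabel
  rw [Finset.image_image]
  have : (permEdge τ.symm ∘ permEdge (r := r) τ) = id := by
    funext e
    exact permEdge_symm_permEdge τ e
  rw [this, Finset.image_id]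

open Classical in
/-- indicator of a property -/
noncomputable def ind (P : Set (Hyp r n)) (G : Hyp r n) : ℝ := if G ∈ P then 1 else 0

lemma ind_val (P : Set (Hyp r n)) (G : Hyp r n) : ind P G = 0 ∨ ind P G = 1 := by
  unfold ind
  split_ifs
  · exact Or.inr rfl
  · exact Or.inl rfl

lemma ind_relabel {P : Set (Hyp r n)} (hP : IsProperty P) (τ : Equiv.Perm (Fin n))
    (G : Hyp r n) : ind P (relabel τ G) = ind P G := by
  unfold ind
  have h : relabel τ G ∈ P ↔ G ∈ P := by
    constructor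
    · intro h
      have := hP τ.symm _ h
      rwa [relabel_symm_relabel] at this
    · exact hP τ G
  by_cases hG : G ∈ P
  · rw [if_pos (h.2 hG), if_pos hG]
  · rw [if_neg (fun h2 => hG (h.1 h2)), if_neg hG]

/-- edges that meet `R` -/
def ER (r : ℕ) {n : ℕ} (R : Finset (Fin n)) : Hyp r n :=
  Finset.univ.filter (fun e : Edge r n => (e.1 ∩ R).Nonempty)

/-- edges disjoint from `R` -/
def BR (r : ℕ) {n : ℕ} (R : Finset (Fin n)) : Hyp r n :=
  Finset.univ.filter (fun e : Edge r n => ¬ (e.1 ∩ R).Nonempty)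

lemma ER_union_BR (R : Finset (Fin n)) : ER r R ∪ BR r R = Finset.univ :=
  Finset.filter_union_filter_not_eq _ _

lemma disjoint_ER_BR (R : Finset (Fin n)) : Disjoint (ER r R) (BR r R) :=
  Finset.disjoint_filter_filter_not _ _ _

lemma mem_ER (R : Finset (Fin n)) (e : Edge r n) : e ∈ ER r R ↔ ∃ a, a ∈ e.1 ∧ a ∈ R := by
  unfold ER
  rw [Finset.mem_filter]
  constructor
  · rintro ⟨_, a, ha⟩
    exact ⟨a, Finset.mem_inter.1 ha⟩
  · rintro ⟨a, ha⟩
    exact ⟨Finset.mem_univ _, a, Finset.mem_inter.2 ha⟩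

lemma mem_BR (R : Finset (Fin n)) (e : Edge r n) : e ∈ BR r R ↔ ∀ a ∈ e.1, a ∉ R := by
  unfold BR
  rw [Finset.mem_filter]
  constructor
  · rintro ⟨_, h⟩ a ha haR
    exact h ⟨a, Finset.mem_inter.2 ⟨ha, haR⟩⟩
  · intro h
    refine ⟨Finset.mem_univ _, ?_⟩
    rintro ⟨a, ha⟩
    exact h a (Finset.mem_inter.1 ha).1 (Finset.mem_inter.1 ha).2

section swap

variable {R : Finset (Fin n)} {a c : Fin n}

lemma swap_mem_iff (ha : a ∈ R) (hc : c ∈ R) (x : Fin n) : Equiv.swap a c x ∈ R ↔ x ∈ R := by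
  by_cases hxa : x = a
  · subst hxa
    rw [Equiv.swap_apply_left]
    exact ⟨fun _ => ha, fun _ => hc⟩
  · by_cases hxc : x = c
    · subst hxc
      rw [Equiv.swap_apply_right]
      exact ⟨fun _ => hc, fun _ => ha⟩
    · rw [Equiv.swap_apply_of_ne_of_ne hxa hxc]

lemma permEdge_swap_ER (ha : a ∈ R) (hc : c ∈ R) {e : Edge r n} (he : e ∈ ER r R) :
    permEdge (Equiv.swap a c) e ∈ ER r R := by
  rw [mem_ER] at he ⊢
  obtain ⟨x, hx, hxR⟩ := he
  refine ⟨Equiv.swap a c x, ?_, (swap_mem_iff ha hc x).2 hxR⟩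
  rw [mem_permEdge, Equiv.symm_swap, Equiv.swap_apply_self]
  exact hx

lemma permEdge_swap_BR (ha : a ∈ R) (hc : c ∈ R) {e : Edge r n} (he : e ∈ BR r R) :
    permEdge (Equiv.swap a c) e = e := by
  rw [mem_BR] at he
  apply Subtype.ext
  ext x
  rw [mem_permEdge, Equiv.symm_swap]
  by_cases hxa : x = a
  · subst hxa
    rw [Equiv.swap_apply_left]
    exact ⟨fun h => absurd hc (he _ h), fun h => absurd ha (he _ h)⟩
  · by_cases hxc : x = c
    · subst hxc
      rw [Equiv.swap_apply_right]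
      exact ⟨fun h => absurd ha (he _ h), fun h => absurd hc (he _ h)⟩
    · rw [Equiv.swap_apply_of_ne_of_ne hxa hxc]

lemma image_swap_ER (ha : a ∈ R) (hc : c ∈ R) :
    (ER r R).image (permEdge (Equiv.swap a c)) = ER r R := by
  apply Finset.eq_of_subset_of_card_le
  · intro e he
    rw [Finset.mem_image] at he
    obtain ⟨f, hf, rfl⟩ := he
    exact permEdge_swap_ER ha hc hf
  · rw [Finset.card_image_of_injective _ (permEdge_injective _)]

lemma slice_invariant {P : Set (Hyp r n)} (hP : IsProperty P) (ha : a ∈ R) (hc : c ∈ R)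
    {z : Hyp r n} (hz : z ⊆ BR r R) (x : Hyp r n) :
    ind P (x.image (permEdge (Equiv.swap a c)) ∪ z) = ind P (x ∪ z) := by
  have e1 : z.image (permEdge (Equiv.swap a c)) = z := by
    ext e
    rw [Finset.mem_image]
    constructor
    · rintro ⟨f, hf, rfl⟩
      rw [permEdge_swap_BR ha hc (hz hf)]
      exact hf
    · intro he
      exact ⟨e, he, permEdge_swap_BR ha hc (hz he)⟩
  rw [← ind_relabel hP (Equiv.swap a c) (x ∪ z)]
  unfold relabel
  rw [Finset.image_union, e1]

lemma piv_swap {P : Set (Hyp r n)} (hP : IsProperty P) (ha : a ∈ R) (hc : c ∈ R)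
    {z : Hyp r n} (hz : z ⊆ BR r R) (p : ℝ) {e : Edge r n} (he : e ∈ ER r R) :
    piv p (ER r R) (fun y => ind P (y ∪ z)) (permEdge (Equiv.swap a c) e) =
      piv p (ER r R) (fun y => ind P (y ∪ z)) e :=
  piv_symm p (permEdge_injective _) (image_swap_ER ha hc) _
    (fun x _ => slice_invariant hP ha hc hz x) he

end swap

/-- in a slice every pivot probability is at most the `|R|`-th part of their sum -/
lemma orbit_bound {P : Set (Hyp r n)} (hP : IsProperty P) {R : Finset (Fin n)} (hR : r < R.card)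
    {z : Hyp r n} (hz : z ⊆ BR r R) {p : ℝ} (h0 : 0 ≤ p) (h1 : p ≤ 1) {e : Edge r n}
    (he : e ∈ ER r R) :
    (R.card : ℝ) * piv p (ER r R) (fun y => ind P (y ∪ z)) e ≤
      ∑ j ∈ ER r R, piv p (ER r R) (fun y => ind P (y ∪ z)) j := by
  obtain ⟨a, hae, haR⟩ := (mem_ER R e).1 he
  obtain ⟨b, hb⟩ : ∃ b, b ∈ R \ e.1 := by
    have : 0 < (R \ e.1).card := by
      have h2 := Finset.le_card_sdiff e.1 R
      have h3 := e.2
      omega
    exact Finset.card_pos.1 this
  rw [Finset.mem_sdiff] at hb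
  obtain ⟨hbR, hbe⟩ := hb
  set φ : Fin n → Edge r n := fun c =>
    if c = a then e else if c ∈ e.1 then permEdge (Equiv.swap c b) e
      else permEdge (Equiv.swap a c) e with hφ
  have hφa : φ a = e := by rw [hφ]; simp
  have hφ1 : ∀ c, c ≠ a → c ∈ e.1 → φ c = permEdge (Equiv.swap c b) e := by
    intro c h1 h2
    simp only [hφ, if_neg h1, if_pos h2]
  have hφ2 : ∀ c, c ≠ a → c ∉ e.1 → φ c = permEdge (Equiv.swap a c) e := by
    intro c h1 h2
    simp only [hφ, if_neg h1, if_neg h2]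
  have hmem : ∀ c ∈ R, φ c ∈ ER r R := by
    intro c hc
    by_cases h1 : c = a
    · rw [h1, hφa]; exact he
    · by_cases h2 : c ∈ e.1
      · rw [hφ1 c h1 h2]; exact permEdge_swap_ER hc hbR he
      · rw [hφ2 c h1 h2]; exact permEdge_swap_ER haR hc he
  have hpiv : ∀ c ∈ R, piv p (ER r R) (fun y => ind P (y ∪ z)) (φ c) =
      piv p (ER r R) (fun y => ind P (y ∪ z)) e := by
    intro c hc
    by_cases h1 : c = a
    · rw [h1, hφa]
    · by_cases h2 : c ∈ e.1
      · rw [hφ1 c h1 h2]; exact piv_swap hP hc hbR hz p he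
      · rw [hφ2 c h1 h2]; exact piv_swap hP haR hc hz p he
  have hba : b ≠ a := fun h => hbe (h ▸ hae)
  -- membership facts
  have m1 : ∀ c, c ≠ a → c ∈ e.1 → ∀ x, x ∈ (φ c).1 ↔ Equiv.swap c b x ∈ e.1 := by
    intro c h1 h2 x
    rw [hφ1 c h1 h2, mem_permEdge, Equiv.symm_swap]
  have m2 : ∀ c, c ≠ a → c ∉ e.1 → ∀ x, x ∈ (φ c).1 ↔ Equiv.swap a c x ∈ e.1 := by
    intro c h1 h2 x
    rw [hφ2 c h1 h2, mem_permEdge, Equiv.symm_swap]
  have f1 : ∀ c, c ≠ a → c ∈ e.1 → c ∉ (φ c).1 := by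
    intro c h1 h2
    rw [m1 c h1 h2, Equiv.swap_apply_left]
    exact hbe
  have f2 : ∀ c, c ≠ a → c ∈ e.1 → a ∈ (φ c).1 := by
    intro c h1 h2
    rw [m1 c h1 h2, Equiv.swap_apply_of_ne_of_ne (Ne.symm h1) hba.symm]
    exact hae
  have f3 : ∀ c c', c' ≠ a → c' ∈ e.1 → c ∈ e.1 → c ≠ c' → c ∈ (φ c').1 := by
    intro c c' h1 h2 h3 h4
    have h5 : c ≠ b := fun h => hbe (h ▸ h3)
    rw [m1 c' h1 h2, Equiv.swap_apply_of_ne_of_ne h4 h5]
    exact h3
  have f4 : ∀ c, c ≠ a → c ∉ e.1 → a ∉ (φ c).1 := by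
    intro c h1 h2
    rw [m2 c h1 h2, Equiv.swap_apply_left]
    exact h2
  have f5 : ∀ c, c ≠ a → c ∉ e.1 → c ∈ (φ c).1 := by
    intro c h1 h2
    rw [m2 c h1 h2, Equiv.swap_apply_right]
    exact hae
  have f6 : ∀ c c', c' ≠ a → c' ∉ e.1 → c ∉ e.1 → c ≠ c' → c ∉ (φ c').1 := by
    intro c c' h1 h2 h3 h4
    have h5 : c ≠ a := fun h => h3 (h ▸ hae)
    rw [m2 c' h1 h2, Equiv.swap_apply_of_ne_of_ne h5 h4]
    exact h3
  have hinj : ∀ c c', φ c = φ c' → c = c' := by
    intro c c' h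
    by_contra hne
    have hiff : ∀ x, x ∈ (φ c).1 ↔ x ∈ (φ c').1 := fun x => by rw [h]
    by_cases hca : c = a
    · have hc'a : c' ≠ a := fun h => hne (hca.trans h.symm)
      have h5 : φ c = e := by rw [hca, hφa]
      by_cases hc'e : c' ∈ e.1
      · have := (hiff c').1 (by rw [h5]; exact hc'e)
        exact f1 c' hc'a hc'e this
      · have := (hiff a).1 (by rw [h5]; exact hae)
        exact f4 c' hc'a hc'e this
    · by_cases hc'a : c' = a
      · have h5 : φ c' = e := by rw [hc'a, hφa]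
        by_cases hce : c ∈ e.1
        · have := (hiff c).2 (by rw [h5]; exact hce)
          exact f1 c hca hce this
        · have := (hiff a).2 (by rw [h5]; exact hae)
          exact f4 c hca hce this
      · by_cases hce : c ∈ e.1
        · by_cases hc'e : c' ∈ e.1
          · exact f1 c hca hce ((hiff c).2 (f3 c c' hc'a hc'e hce hne))
          · exact f4 c' hc'a hc'e ((hiff a).1 (f2 c hca hce))
        · by_cases hc'e : c' ∈ e.1
          · exact f4 c hca hce ((hiff a).2 (f2 c' hc'a hc'e))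
          · exact f6 c c' hc'a hc'e hce hne ((hiff c).1 (f5 c hca hce))
  calc (R.card : ℝ) * piv p (ER r R) (fun y => ind P (y ∪ z)) e
      = ∑ c ∈ R, piv p (ER r R) (fun y => ind P (y ∪ z)) (φ c) := by
        rw [Finset.sum_congr rfl hpiv, Finset.sum_const, nsmul_eq_mul]
    _ = ∑ j ∈ R.image φ, piv p (ER r R) (fun y => ind P (y ∪ z)) j := by
        rw [Finset.sum_image]
        intro c _ c' _ h
        exact hinj c c' h
    _ ≤ ∑ j ∈ ER r R, piv p (ER r R) (fun y => ind P (y ∪ z)) j := by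
        apply Finset.sum_le_sum_of_subset_of_nonneg
        · intro j hj
          rw [Finset.mem_image] at hj
          obtain ⟨c, hc, rfl⟩ := hj
          exact hmem c hc
        · intro j _ _
          exact piv_nonneg h0 h1 _ _ _

end Vale.Agent.P063
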